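import Vale.Agent.P240.D.PC

/-! P240 W/Fld (automorphisms of the orthogonal group PH, n odd; auxiliary names end with `_WFld`). Plan: every element of K is a sum of two squares (FiniteField.exists_root_sum_quadratic or Mathlib sq_add_sq for finite fields of odd characteristic). For t choose a unit vector x t = (t, a, b, 0, ..) and put F t = (θ (x t) 0) ^ 2; then (θ u θ v)^2 = F (u v), F (-t) = F t, F 0 = 0, F 1 = 1, and the sum of F (v i) is 1 for every unit vector v (θ v i = ± θ v θ (e i)). With four places F x + F y depends only on x x + y y; call it G (x x + y y); G s + G (1 - s) = 1; with five places G (s + z z) = G s + F z, so G is additive, G (t t) = F t. For the unit vector u = (a, b, ..): (rfm u e 0) e 1 = -2 a b, and the last hypothesis gives F (2 a b) = 4 F a F b, so G (a a b b) = G (a a) G (b b) and G is multiplicative by additivity. RingHom.mk', RingEquiv.ofBijective. -/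

namespace Vale.Agent.P240

open Matrix

variable {n : ℕ} {K : Type} [Field K] {i j : Fin n} {r s : Finset (Fin n)}
  {φ : ProjGenLinGroup (Fin n) K → ProjGenLinGroup (Fin n) K} {u v w u' v' : Fin n → K}
  {θ : (Fin n → K) → Fin n → K}

theorem sos_WFld [Finite K] (h2 : (2 : K) ≠ 0) (x : K) : ∃ a b : K, a * a + b * b = x := by
  have := Fintype.ofFinite K
  have hc : ringChar K ≠ 2 := fun h => h2 (by
    have e := (ringChar.spec K 2).2 (h ▸ dvd_rfl)
    exact_mod_cast e)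
  obtain ⟨a, b, h⟩ := FiniteField.exists_root_sum_quadratic
    (f := (Polynomial.X : Polynomial K) ^ 2) (g := Polynomial.X ^ 2 - Polynomial.C x)
    (Polynomial.degree_X_pow 2) (Polynomial.degree_X_pow_sub_C (by decide) x)
    (FiniteField.odd_card_of_char_ne_two hc)
  refine ⟨a, b, ?_⟩
  simp only [Polynomial.eval_pow, Polynomial.eval_X, Polynomial.eval_sub, Polynomial.eval_C] at h
  linear_combination h

theorem alg_WFld [Finite K] (h2 : (2 : K) ≠ 0) {F : K → K} (f0 : F 0 = 0) (f1 : F 1 = 1)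
    (f5 : ∀ a b c d e, a * a + b * b + c * c + d * d + e * e = 1 →
      F a + F b + F c + F d + F e = 1)
    (fm : ∀ a b, F (-(2 * a * b)) = 4 * F a * F b) : ∃ τ : RingAut K, ∀ t, F t = τ t ^ 2 := by
  choose p q hpq using sos_WFld h2
  obtain ⟨G, hG⟩ : ∃ G : K → K, ∀ s, G s = F (p s) + F (q s) := ⟨_, fun _ => rfl⟩
  have g1 : ∀ s z, G (s + z * z) = G s + F z := fun s z => by
    have a1 := f5 (p s) (q s) z (p (1 - s - z * z)) (q (1 - s - z * z))
      (by linear_combination hpq s + hpq (1 - s - z * z))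
    have a2 := f5 (p (s + z * z)) (q (s + z * z)) 0 (p (1 - s - z * z)) (q (1 - s - z * z))
      (by linear_combination hpq (s + z * z) + hpq (1 - s - z * z))
    rw [hG, hG]
    linear_combination a2 - a1 - f0
  have g0 : G 0 = 0 := by
    have a1 := f5 (p 0) (q 0) 1 0 0 (by linear_combination hpq 0)
    rw [hG]
    linear_combination a1 - f1 - 2 * f0
  have g2 : ∀ z, G (z * z) = F z := fun z => by
    have a := g1 0 z
    rwa [zero_add, g0, zero_add] at a
  have ga : ∀ s t, G (s + t) = G s + G t := fun s t => by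
    have e : s + t = s + p t * p t + q t * q t := by linear_combination -hpq t
    rw [e, g1, g1, hG t, add_assoc]
  have gm : ∀ a b, G (a * a * (b * b)) = F a * F b := fun a b => by
    have a1 := g2 (-(2 * a * b))
    have e : -(2 * a * b) * -(2 * a * b) = a * a * (b * b) + a * a * (b * b) +
        (a * a * (b * b) + a * a * (b * b)) := by ring
    rw [e, ga, ga, fm] at a1
    refine mul_left_cancel₀ (mul_ne_zero h2 h2) ?_
    linear_combination a1
  have gmul : ∀ s t, G (s * t) = G s * G t := fun s t => by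
    have e : s * t = p s * p s * (p t * p t) + p s * p s * (q t * q t) +
        (q s * q s * (p t * p t) + q s * q s * (q t * q t)) := by
      linear_combination -(hpq s) * t - (p s * p s + q s * q s) * hpq t
    rw [e, ga, ga, ga, gm, gm, gm, gm, hG s, hG t]
    ring
  have gone : G 1 = 1 := by
    have a := g2 1
    rwa [mul_one, f1] at a
  let ρ : K →+* K := RingHom.mk' ⟨⟨G, gone⟩, gmul⟩ ga
  refine ⟨RingEquiv.ofBijective ρ (Finite.injective_iff_bijective.1 ρ.injective), fun t => ?_⟩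
  change F t = G t ^ 2
  rw [sq, ← gmul, g2]

theorem vec_WFld (h5 : 5 ≤ n) (f : Fin 5 → K) : ∃ v : Fin n → K,
    (∀ k, v (Fin.castLE h5 k) = f k) ∧ ∀ g : K → K, g 0 = 0 → ∑ i, g (v i) = ∑ k, g (f k) := by
  have hi := Fin.castLE_injective h5
  refine ⟨Function.extend (Fin.castLE h5) f 0, fun k => hi.extend_apply _ _ k, fun g g0 => ?_⟩
  refine (Fintype.sum_of_injective _ hi _ _ (fun i h => ?_) fun k => ?_).symm
  · rw [Function.extend_apply' _ _ _ h, Pi.zero_apply, g0]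
  · rw [hi.extend_apply]

theorem rv_WFld (h : u ⬝ᵥ u = 1) (v : Fin n → K) : rfm u *ᵥ v = v - (2 * (u ⬝ᵥ v)) • u := by
  rw [rfm, h, div_one, sub_mulVec, one_mulVec, smul_mulVec, vecMulVec_mulVec]
  funext i
  simp only [Pi.sub_apply, Pi.smul_apply, smul_eq_mul, MulOpposite.smul_eq_mul_unop,
    MulOpposite.unop_op]
  ring

theorem fld_O [Finite K] (h2 : (2 : K) ≠ 0) (h5 : 5 ≤ n) (h0 : ∀ v, v ⬝ᵥ v = 1 → θ v ⬝ᵥ θ v = 1)
    (h1 : ∀ u v u' v', u ⬝ᵥ u = 1 → v ⬝ᵥ v = 1 → u' ⬝ᵥ u' = 1 → v' ⬝ᵥ v' = 1 →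
      (u ⬝ᵥ v) ^ 2 = (u' ⬝ᵥ v') ^ 2 → (θ u ⬝ᵥ θ v) ^ 2 = (θ u' ⬝ᵥ θ v') ^ 2)
    (hE : ∀ i, θ (Pi.single i 1) = Pi.single i 1 ∨ θ (Pi.single i 1) = -Pi.single i 1)
    (h3 : ∀ u v, u ⬝ᵥ u = 1 → v ⬝ᵥ v = 1 →
      θ (rfm u *ᵥ v) = rfm (θ u) *ᵥ θ v ∨ θ (rfm u *ᵥ v) = -(rfm (θ u) *ᵥ θ v)) :
    ∃ τ : RingAut K, ∀ u v, u ⬝ᵥ u = 1 → v ⬝ᵥ v = 1 → (θ u ⬝ᵥ θ v) ^ 2 = τ (u ⬝ᵥ v) ^ 2 := by
  have hs : ∀ i : Fin n, (Pi.single i 1 : Fin n → K) ⬝ᵥ Pi.single i 1 = 1 := fun i => by simp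
  have hv : ∀ a b : K, ∃ v : Fin n → K, v ⬝ᵥ v = 1 ∧ v (Fin.castLE h5 0) = a ∧
      v (Fin.castLE h5 1) = b := fun a b => by
    obtain ⟨c, d, h⟩ := sos_WFld h2 (1 - a * a - b * b)
    obtain ⟨v, v1, v2⟩ := vec_WFld h5 ![a, b, c, d, 0]
    refine ⟨v, ?_, v1 0, v1 1⟩
    have e := v2 (fun t => t * t) (mul_zero _)
    simp only [Fin.sum_univ_five, Matrix.cons_val] at e
    rw [dotProduct, e]
    linear_combination h
  choose x x1 x2 x3 using hv
  obtain ⟨F, hF⟩ : ∃ F : K → K, ∀ u v, u ⬝ᵥ u = 1 → v ⬝ᵥ v = 1 →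
      (θ u ⬝ᵥ θ v) ^ 2 = F (u ⬝ᵥ v) :=
    ⟨fun t => (θ (x t 0) ⬝ᵥ θ (Pi.single (Fin.castLE h5 0) 1)) ^ 2, fun u v hu hv =>
      h1 _ _ _ _ hu hv (x1 _ _) (hs _) (by rw [dotProduct_single, x2, mul_one])⟩
  have hc : ∀ v i, v ⬝ᵥ v = 1 → F (v i) = θ v i ^ 2 := fun v i hv => by
    have e := hF v _ hv (hs i)
    rw [dotProduct_single, mul_one] at e
    rw [← e]
    rcases hE i with h | h <;> rw [h] <;> simp
  have hne : Fin.castLE h5 1 ≠ Fin.castLE h5 0 := fun h => by
    simpa using Fin.castLE_injective h5 h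
  have f0 : F 0 = 0 := by
    have e := hc _ (Fin.castLE h5 1) (hs (Fin.castLE h5 0))
    rw [Pi.single_eq_of_ne hne] at e
    rw [e]
    rcases hE (Fin.castLE h5 0) with h | h <;> rw [h] <;> simp
  have f1 : F 1 = 1 := by
    have e := hc _ (Fin.castLE h5 0) (hs (Fin.castLE h5 0))
    rw [Pi.single_eq_same] at e
    rw [e]
    rcases hE (Fin.castLE h5 0) with h | h <;> rw [h] <;> simp
  obtain ⟨τ, hτ⟩ := alg_WFld h2 f0 f1 (fun a b c d e h => by
    obtain ⟨v, -, v2⟩ := vec_WFld h5 ![a, b, c, d, e]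
    have e1 := v2 (fun t => t * t) (mul_zero _)
    have e2 := v2 F f0
    simp only [Fin.sum_univ_five, Matrix.cons_val] at e1 e2
    have hv : v ⬝ᵥ v = 1 := by rw [dotProduct, e1, h]
    rw [← e2, ← h0 v hv, dotProduct]
    exact Finset.sum_congr rfl fun i _ => by rw [hc v i hv, sq]) (fun a b => by
    have u1 := x1 a b
    have hw : (rfm (x a b) *ᵥ Pi.single (Fin.castLE h5 0) 1) ⬝ᵥ
        (rfm (x a b) *ᵥ Pi.single (Fin.castLE h5 0) 1) = 1 := by
      rw [rv_WFld u1]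
      simp only [sub_dotProduct, dotProduct_sub, smul_dotProduct, dotProduct_smul, u1,
        dotProduct_single, single_dotProduct, smul_eq_mul, mul_one, one_mul, Pi.sub_apply,
        Pi.smul_apply, Pi.single_eq_same]
      ring
    have e := hc _ (Fin.castLE h5 1) hw
    have ea := hc _ (Fin.castLE h5 0) u1
    have eb := hc _ (Fin.castLE h5 1) u1
    rw [x2] at ea
    rw [x3] at eb
    have e1 : (rfm (x a b) *ᵥ Pi.single (Fin.castLE h5 0) 1) (Fin.castLE h5 1) =
        -(2 * a * b) := by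
      rw [rv_WFld u1, Pi.sub_apply, Pi.smul_apply, Pi.single_eq_of_ne hne, dotProduct_single,
        x2, x3, smul_eq_mul]
      ring
    rw [e1] at e
    rw [e, ea, eb]
    rcases h3 _ _ u1 (hs (Fin.castLE h5 0)) with h | h <;> rw [h, rv_WFld (h0 _ u1)] <;>
      rcases hE (Fin.castLE h5 0) with h' | h' <;> rw [h'] <;>
      simp only [Pi.neg_apply, Pi.sub_apply, Pi.smul_apply, Pi.single_eq_of_ne hne,
        dotProduct_neg, dotProduct_single, smul_eq_mul] <;> ring)
  exact ⟨τ, fun u v hu hv => by rw [hF u v hu hv, hτ]⟩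

end Vale.Agent.P240
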