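import Vale.Agent.P240.W.Spin
import Vale.Agent.P240.U.DiagP
import Vale.Agent.P240.U.Bas
import Vale.Agent.P240.T.Final

/-! P240 W/Nrm (automorphisms of the orthogonal group PH, n odd; auxiliary names end with `_WNrm`). As V/Nrm with σ = 1. es_memO: even_Mem and es_compl (n odd). diag_O: diag_P (PH ≤ Pr SG by PH_le, mem_TAppS, det_TConjB) gives Y; the map e to y⁻¹ (φ e) y is onto range es, so mk (Y * sg {k} * Y⁻¹) is in PH; hence Y sg {k} Y⁻¹ is orthogonal, Yᵀ Y = diagonal d, col_DPC says that Y sg {k} Y⁻¹ = rf (column k) with norm d k, which is a square by nsq_not_mem; rescale the columns. -/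

namespace Vale.Agent.P240

open Matrix

variable {n : ℕ} {K : Type} [Field K] {i j : Fin n} {r s : Finset (Fin n)}
  {φ : ProjGenLinGroup (Fin n) K → ProjGenLinGroup (Fin n) K} {u v w u' v' : Fin n → K}
  {θ : (Fin n → K) → Fin n → K}

theorem es_memO (hn : Odd n) (s : Finset (Fin n)) : es K s ∈ PH n K := by
  obtain ⟨m, rfl⟩ : ∃ m, n = m + 1 := ⟨n - 1, by have := hn.pos; omega⟩
  rcases Nat.even_or_odd s.card with h | h
  · exact comm_DTwo hn (even_Mem s h)
  · rw [← es_compl]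
    refine comm_DTwo hn (even_Mem sᶜ ?_)
    rw [Finset.card_compl, Fintype.card_fin]
    exact Nat.Odd.sub_odd hn h

theorem sq_WNrm (s : Finset (Fin n)) : sg K s * sg K s = 1 := by
  rw [mul_UBas, symmDiff_self, Finset.bot_eq_empty]
  refine Units.ext ?_
  rw [sg_val]
  simp

theorem sc_WNrm (hn : Odd n) (u : Kˣ) :
    GeneralLinearGroup.scalar (Fin n) u ∈ OG n K ↔ (u : K) * u = 1 := by
  show (diagonal fun _ : Fin n => (u : K))ᵀ * (diagonal fun _ : Fin n => (u : K)) = 1 ↔ _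
  rw [diagonal_transpose, diagonal_mul_diagonal, ← diagonal_one, diagonal_eq_diagonal_iff]
  exact ⟨fun h => h ⟨0, hn.pos⟩, fun h _ => h⟩

theorem ort_WNrm (hn : Odd n) {x : GL (Fin n) K} (sq : x * x = 1)
    (h : ProjGenLinGroup.mk x ∈ PH n K) : x ∈ OG n K := by
  obtain ⟨g, hg, e⟩ := PH_le h
  obtain ⟨u, rfl⟩ := ProjGenLinGroup.mk_eq_mk_iff.1 e
  have e1 := congrArg GeneralLinearGroup.det sq
  rw [map_mul, map_mul, det_UDiagP, map_one, mul_mul_mul_comm, det_TConjB hg, one_mul] at e1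
  have e2 : g * g * GeneralLinearGroup.scalar (Fin n) (u * u) = 1 := by
    rw [← sq, map_mul, mul_assoc g, mul_assoc g, ← mul_assoc (GeneralLinearGroup.scalar (Fin n) u),
      cen_UDiagP u g, mul_assoc g]
  have e3 : GeneralLinearGroup.scalar (Fin n) (u * u) ∈ OG n K := by
    rw [eq_inv_of_mul_eq_one_right e2]
    exact (OG n K).inv_mem ((OG n K).mul_mem hg hg)
  rw [sc_WNrm hn, Units.val_mul] at e3
  have e6 : ((u : K) * u) ^ n = 1 := by
    rw [mul_pow, ← Units.val_pow_eq_pow_val, ← Units.val_mul, e1, Units.val_one]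
  have e7 : ((u : K) * u) ^ 2 = 1 := by rw [← e3]; ring
  obtain ⟨m, hm⟩ := hn
  have e8 : (u : K) * u = 1 := by
    rwa [hm, pow_succ, pow_mul, e7, one_pow, one_mul] at e6
  exact (OG n K).mul_mem hg ((sc_WNrm ⟨m, hm⟩ u).2 e8)

theorem dia_WNrm (h2 : (2 : K) ≠ 0) {Y : GL (Fin n) K} (h : ∀ k, Y * sg K {k} * Y⁻¹ ∈ OG n K) :
    ∃ d : Fin n → Kˣ, (Y : Matrix (Fin n) (Fin n) K)ᵀ * (Y : Matrix (Fin n) (Fin n) K) =
      diagonal fun i => (d i : K) := by
  obtain ⟨H, hH⟩ : ∃ H, H = (Y : Matrix (Fin n) (Fin n) K)ᵀ * (Y : Matrix (Fin n) (Fin n) K) :=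
    ⟨_, rfl⟩
  have hc : ∀ k, (sg K {k} : Matrix (Fin n) (Fin n) K) * H * (sg K {k} : GL (Fin n) K) = H := by
    intro k
    have a1 : ((Y * sg K {k} * Y⁻¹ : GL (Fin n) K) : Matrix (Fin n) (Fin n) K)ᵀ *
      ((Y * sg K {k} * Y⁻¹ : GL (Fin n) K) : Matrix (Fin n) (Fin n) K) = 1 := h k
    have a2 : ((Y * sg K {k} * Y⁻¹ : GL (Fin n) K) : Matrix (Fin n) (Fin n) K) * Y =
        Y * (sg K {k} : GL (Fin n) K) := by
      rw [← Units.val_mul, ← Units.val_mul, inv_mul_cancel_right]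
    have a3 : ((sg K {k} : GL (Fin n) K) : Matrix (Fin n) (Fin n) K)ᵀ = (sg K {k} : GL (Fin n) K) := by
      rw [sg_val, diagonal_transpose]
    have a4 := congrArg (fun M => (Y : Matrix (Fin n) (Fin n) K)ᵀ * M * Y) a1
    simp only [Matrix.mul_one] at a4
    rw [Matrix.mul_assoc, Matrix.mul_assoc, a2, ← Matrix.mul_assoc, ← transpose_mul, a2,
      transpose_mul, a3] at a4
    rw [hH, ← a4]
    rw [a4]
    simpa only [Matrix.mul_assoc] using a4
  have e : H = diagonal fun i => H i i := by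
    ext i k
    by_cases hik : i = k
    · rw [hik, diagonal_apply_eq]
    · rw [diagonal_apply_ne _ hik]
      have h1 := congrFun (congrFun (hc k) i) k
      simp only [sg_val, mul_diagonal, diagonal_mul, Finset.mem_singleton, hik,
        if_true, if_false, Units.val_neg, Units.val_one] at h1
      refine (mul_eq_zero.1 (?_ : 2 * H i k = 0)).resolve_left h2
      linear_combination -h1
  have hne : ∀ i, H i i ≠ 0 := fun i hi => by
    have h1 : H.det ≠ 0 := by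
      rw [hH, det_mul, det_transpose]
      exact mul_ne_zero Y.det_ne_zero Y.det_ne_zero
    rw [e, det_diagonal] at h1
    exact h1 (Finset.prod_eq_zero (Finset.mem_univ i) hi)
  exact ⟨fun i => Units.mk0 _ (hne i), hH ▸ e⟩

theorem diag_O [Finite K] (h2 : (2 : K) ≠ 0) (hn : Odd n) (h3 : 3 ≤ n) (hφ : Au (PH n K) φ) :
    ∃ y ∈ OG n K, ∀ i, ∃ s, φ (es K {i}) = ProjGenLinGroup.mk y * es K s * (ProjGenLinGroup.mk y)⁻¹ := by
  have hle : PH n K ≤ Pr (SG n K) := fun x hx => by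
    obtain ⟨g, hg, rfl⟩ := PH_le hx
    exact mem_TAppS hn (det_TConjB hg)
  obtain ⟨y, hy⟩ := diag_P h2 hn (fun s : Finset (Fin n) => φ (es K s))
    (fun s => hle (hφ.mem _ (es_memO hn s)))
    (fun s => by rw [← hφ.mul _ (es_memO hn s) _ (es_memO hn s), es_sq, hφ.one])
    (fun r s => by
      rw [← hφ.mul _ (es_memO hn r) _ (es_memO hn s), ← hφ.mul _ (es_memO hn s) _ (es_memO hn r),
        es_comm])
  obtain ⟨Y, rfl⟩ := ProjGenLinGroup.mk_surjective y
  have hm : Set.MapsTo (fun e => (ProjGenLinGroup.mk Y)⁻¹ * φ e * ProjGenLinGroup.mk Y)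
      (Set.range (es (n := n) K)) (Set.range (es (n := n) K)) := by
    rintro _ ⟨s, rfl⟩
    obtain ⟨r, hr⟩ := hy s
    refine ⟨r, ?_⟩
    simp only [hr]
    group
  have hi : Set.InjOn (fun e => (ProjGenLinGroup.mk Y)⁻¹ * φ e * ProjGenLinGroup.mk Y)
      (Set.range (es (n := n) K)) := by
    rintro _ ⟨s, rfl⟩ _ ⟨r, rfl⟩ e
    exact hφ.inj _ (es_memO hn s) _ (es_memO hn r) (mul_left_cancel (mul_right_cancel e))
  have hb := ((Set.finite_range (es (n := n) K)).injOn_iff_bijOn_of_mapsTo hm).1 hi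
  have hP : ∀ k, ProjGenLinGroup.mk (Y * sg K {k} * Y⁻¹) ∈ PH n K := by
    intro k
    obtain ⟨_, ⟨s, rfl⟩, e⟩ := hb.surjOn ⟨{k}, rfl⟩
    have e' : ProjGenLinGroup.mk (Y * sg K {k} * Y⁻¹) = φ (es K s) := by
      have e1 : ProjGenLinGroup.mk (sg K {k}) =
          (ProjGenLinGroup.mk Y)⁻¹ * φ (es K s) * ProjGenLinGroup.mk Y := e.symm
      rw [map_mul, map_mul, map_inv, e1]
      group
    rw [e']
    exact hφ.mem _ (es_memO hn s)
  obtain ⟨d, hd⟩ := dia_WNrm h2 (Y := Y) fun k => ort_WNrm hn (by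
    calc Y * sg K {k} * Y⁻¹ * (Y * sg K {k} * Y⁻¹) = Y * (sg K {k} * sg K {k}) * Y⁻¹ := by group
      _ = 1 := by rw [sq_WNrm, mul_one, mul_inv_cancel]) (hP k)
  have hs : ∀ k, ∃ c : K, (d k : K) = c * c := fun k => by
    by_contra hc
    obtain ⟨a1, a2⟩ := col_DPC hd k
    refine nsq_not_mem h2 hn h3 (w := fun j => (Y : Matrix (Fin n) (Fin n) K) j k)
      (by rw [a1]; exact hc) ?_
    have := hP k
    simp only [sg, Finset.mem_singleton] at this
    rwa [← a2]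
  choose c hcc using hs
  have c0 : ∀ i, c i ≠ 0 := fun i hi => (d i).ne_zero (by rw [hcc, hi, zero_mul])
  obtain ⟨t, ht⟩ : ∃ t : Fin n → Kˣ, t = fun i => (Units.mk0 (c i) (c0 i))⁻¹ := ⟨_, rfl⟩
  have e1 : ((dg t : GL (Fin n) K) : Matrix (Fin n) (Fin n) K) = diagonal fun i => (c i)⁻¹ := by
    rw [ht]
    rfl
  refine ⟨Y * dg t, ?_, fun i => ?_⟩
  · show ((Y * dg t : GL (Fin n) K) : Matrix (Fin n) (Fin n) K)ᵀ *
      ((Y * dg t : GL (Fin n) K) : Matrix (Fin n) (Fin n) K) = 1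
    rw [Units.val_mul, e1, transpose_mul, diagonal_transpose, Matrix.mul_assoc,
      ← Matrix.mul_assoc _ (Y : Matrix (Fin n) (Fin n) K), hd, diagonal_mul_diagonal,
      diagonal_mul_diagonal, ← diagonal_one, diagonal_eq_diagonal_iff]
    intro i
    have c1 := c0 i
    rw [hcc]
    field_simp
  obtain ⟨s, hs⟩ := hy {i}
  refine ⟨s, hs.trans ?_⟩
  have c1 : dg t * sg K s = sg K s * dg t := by rw [sg, dg_mul, dg_mul, mul_comm]
  have c2 : Y * dg t * sg K s * (Y * dg t)⁻¹ = Y * sg K s * Y⁻¹ := by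
    rw [mul_assoc Y, c1]
    group
  rw [es, ← map_inv, ← map_inv, ← map_mul, ← map_mul, ← map_mul, ← map_mul, c2]

end Vale.Agent.P240
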