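import Vale.Agent.P240.D.Cent
import Vale.Agent.P240.U.DiagP
import Vale.Agent.P240.T.Cent
import Vale.Agent.P240.W.Nrm

/-! P240 W/Sgn (automorphisms of the orthogonal group PH, n odd; auxiliary names end with `_WSgn`). sgn_O: (θ v i)^2 = (τ (v i))^2. Fix a, b ≠ 0 with a a + b b = 1 (pt_DCent). For i ≠ j let x = a e i + b e j and η i j = θ x i * θ x j / (τ a * τ b), a sign. Expanding (θ x θ v)^2 = τ (x v)^2 gives θ v i * θ v j = η i j * τ (v i) * τ (v j) for every unit v. The unit vector (a, a b, b b) in three places gives η i j * η j k = η i k; d 0 = 1, d i = η 0 i. fix_O: as fix_U in V/Fix; y commutes with all es {k} (es_memO), so it is diagonal; for a unit vector v = (t, a, b, 0, ..) the diagonal entries of y τ(rf v) y⁻¹ = c rf v (c = 1 by the place 3) give τ (t t) = t t; every element is a difference of squares ((s + 1) / 2)^2 - ((s - 1) / 2)^2. Use rf_sq, alrf_TCent. -/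

namespace Vale.Agent.P240

open Matrix

variable {n : ℕ} {K : Type} [Field K] {i j : Fin n} {r s : Finset (Fin n)}
  {φ : ProjGenLinGroup (Fin n) K → ProjGenLinGroup (Fin n) K} {u v w u' v' : Fin n → K}
  {θ : (Fin n → K) → Fin n → K}

theorem all_WSgn {a b : K} (ha : a ≠ 0) (hb : b ≠ 0) (hab : a ^ 2 + b ^ 2 = 1)
    {s : Finset (Fin n)} (hs : s.Nonempty) :
    ∃ w : Fin n → K, w ⬝ᵥ w = 1 ∧ ∀ k, w k ≠ 0 ↔ k ∈ s := by
  induction hs using Finset.Nonempty.cons_induction with
  | singleton i =>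
    refine ⟨Pi.single i 1, by simp, fun k => ?_⟩
    by_cases h : k = i <;> simp [h]
  | cons i s hi _ ih =>
    obtain ⟨w, h1, h2⟩ := ih
    have h0 : w i = 0 := by
      by_contra h
      exact hi ((h2 i).1 h)
    refine ⟨Pi.single i a + b • w, ?_, fun k => ?_⟩
    · simp only [add_dotProduct, dotProduct_add, single_dotProduct, dotProduct_single,
        smul_dotProduct, dotProduct_smul, h1, h0, Pi.single_eq_same, Pi.smul_apply, smul_eq_mul,
        Pi.add_apply]
      linear_combination hab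
    · by_cases h : k = i
      · simp [h, h0, ha]
      · simp [h, hb, ← h2 k]

theorem two_WSgn [Finite K] (h2 : (2 : K) ≠ 0) (δ : K) : ∃ a b : K, a * a + b * b = δ := by
  cases nonempty_fintype K
  have hc : ringChar K ≠ 2 := fun h => h2 (by
    have h1 := ringChar.Nat.cast_ringChar (R := K)
    rw [h] at h1
    exact_mod_cast h1)
  obtain ⟨a, b, hab⟩ := FiniteField.exists_root_sum_quadratic
    (f := Polynomial.X ^ 2) (g := Polynomial.X ^ 2 - Polynomial.C δ)
    (Polynomial.degree_X_pow 2) (Polynomial.degree_X_pow_sub_C (by norm_num) δ)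
    (FiniteField.odd_card_of_char_ne_two hc)
  simp only [Polynomial.eval_pow, Polynomial.eval_X, Polynomial.eval_sub, Polynomial.eval_C] at hab
  exact ⟨a, b, by linear_combination hab⟩

theorem sgn_O [Finite K] (h2 : (2 : K) ≠ 0) (hq : 7 ≤ Nat.card K) (h3 : 3 ≤ n) {τ : RingAut K}
    (hE : ∀ i, θ (Pi.single i 1) = Pi.single i 1 ∨ θ (Pi.single i 1) = -Pi.single i 1)
    (h : ∀ u v, u ⬝ᵥ u = 1 → v ⬝ᵥ v = 1 → (θ u ⬝ᵥ θ v) ^ 2 = τ (u ⬝ᵥ v) ^ 2) :
    ∃ d : Fin n → Kˣ, (∀ i, d i * d i = 1) ∧ ∀ v, v ⬝ᵥ v = 1 →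
      (θ v = fun i => d i * τ (v i)) ∨ θ v = -fun i => d i * τ (v i) := by
  obtain ⟨a, b, ha, hb, hab⟩ := pt_DCent h2 hq
  have hA : ∀ v, v ⬝ᵥ v = 1 → ∀ i, θ v i ^ 2 = τ (v i) ^ 2 := fun v hv i => by
    have e := h (Pi.single i 1) v (by simp) hv
    rcases hE i with e' | e' <;> simpa [e'] using e
  have hB : ∀ i j, ∃ η : K, η * η = 1 ∧ ∀ v, v ⬝ᵥ v = 1 →
      θ v i * θ v j = η * (τ (v i) * τ (v j)) := fun i j => by
    rcases eq_or_ne i j with rfl | hij
    · exact ⟨1, one_mul 1, fun v hv => by linear_combination hA v hv i⟩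
    obtain ⟨x, hx⟩ : ∃ x : Fin n → K, x = Pi.single i a + Pi.single j b := ⟨_, rfl⟩
    have x1 : x ⬝ᵥ x = 1 := by simp [hx, hij, hij.symm, ← hab, sq]
    have xi := hA x x1 i
    have xj := hA x x1 j
    have ei : x i = a := by simp [hx, hij]
    have ej : x j = b := by simp [hx, hij.symm]
    rw [ei] at xi
    rw [ej] at xj
    have e0 : θ x = Pi.single i (θ x i) + Pi.single j (θ x j) := funext fun k => by
      by_cases h1 : k = i
      · simp [h1, hij]
      by_cases h3 : k = j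
      · simp [h3, hij.symm]
      have e := hA x x1 k
      have e' : x k = 0 := by simp [hx, h1, h3]
      rw [e', map_zero, zero_pow two_ne_zero, pow_eq_zero_iff two_ne_zero] at e
      simp [h1, h3, e]
    have ta : τ a ≠ 0 := (map_ne_zero τ).2 ha
    have tb : τ b ≠ 0 := (map_ne_zero τ).2 hb
    refine ⟨θ x i * θ x j / (τ a * τ b), ?_, fun v hv => ?_⟩
    · field_simp
      rw [xi, xj]
    · have e := h x v x1 hv
      have e1 : θ x ⬝ᵥ θ v = θ x i * θ v i + θ x j * θ v j := by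
        conv_lhs => rw [e0]
        simp
      have e2 : τ (x ⬝ᵥ v) = τ a * τ (v i) + τ b * τ (v j) := by simp [hx]
      rw [e1, e2] at e
      have vi := hA v hv i
      have vj := hA v hv j
      have e3 : θ x i * θ x j * (θ v i * θ v j) = τ a * τ b * (τ (v i) * τ (v j)) :=
        mul_left_cancel₀ h2 (by
          linear_combination e - θ v i ^ 2 * xi - τ a ^ 2 * vi - θ v j ^ 2 * xj - τ b ^ 2 * vj)
      rw [div_mul_eq_mul_div, eq_div_iff (mul_ne_zero ta tb)]
      refine mul_left_cancel₀ (mul_ne_zero ta tb) ?_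
      linear_combination (θ x i * θ x j) * e3 - (θ v i * θ v j * θ x j ^ 2) * xi -
        (θ v i * θ v j * τ a ^ 2) * xj
  choose η h1 h4 using hB
  obtain ⟨i₀⟩ : Nonempty (Fin n) := ⟨⟨0, by omega⟩⟩
  obtain ⟨w, w1, w2⟩ := all_WSgn ha hb hab (s := Finset.univ) ⟨i₀, Finset.mem_univ _⟩
  have w3 : ∀ k, τ (w k) ≠ 0 := fun k => (map_ne_zero τ).2 ((w2 k).2 (Finset.mem_univ k))
  have hC : ∀ i j, η i j = η i₀ i * η i₀ j := fun i j => by
    have e1 := h4 i₀ i w w1
    have e2 := h4 i₀ j w w1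
    have e3 := h4 i j w w1
    have e4 := hA w w1 i₀
    refine mul_left_cancel₀ (mul_ne_zero (pow_ne_zero 2 (w3 i₀)) (mul_ne_zero (w3 i) (w3 j))) ?_
    linear_combination (θ w i₀ * θ w j) * e1 + (η i₀ i * (τ (w i₀) * τ (w i))) * e2 -
      θ w i₀ ^ 2 * e3 - (η i j * (τ (w i) * τ (w j))) * e4
  refine ⟨fun i => ⟨η i₀ i, η i₀ i, h1 _ _, h1 _ _⟩, fun i => Units.ext (h1 _ _), fun v hv => ?_⟩
  obtain ⟨k, hk⟩ : ∃ k, v k ≠ 0 := by
    by_contra! e
    simp [dotProduct, e] at hv
  have pk : η i₀ k * τ (v k) ≠ 0 :=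
    mul_ne_zero (left_ne_zero_of_mul_eq_one (h1 _ _)) ((map_ne_zero τ).2 hk)
  have hD : ∀ j, θ v k * θ v j = η i₀ k * τ (v k) * (η i₀ j * τ (v j)) := fun j => by
    rw [h4 k j v hv, hC]
    ring
  rcases mul_self_eq_mul_self_iff.1 (hD k) with e | e
  · refine Or.inl (funext fun j => mul_left_cancel₀ pk ?_)
    have := hD j
    rwa [e] at this
  · refine Or.inr (funext fun j => mul_left_cancel₀ pk ?_)
    have := hD j
    rw [e] at this
    change _ = _ * -(η i₀ j * τ (v j))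
    linear_combination -this

theorem fix_O [Finite K] (h2 : (2 : K) ≠ 0) (hn : Odd n) (h5 : 5 ≤ n)
    {y : ProjGenLinGroup (Fin n) K} {τ : RingAut K}
    (h : ∀ a ∈ PH n K, y * act n K (τ, 1) a * y⁻¹ = a) : τ = 1 := by
  obtain ⟨g, rfl⟩ := ProjGenLinGroup.mk_surjective y
  have h3 : 3 ≤ n := by omega
  have key : ∀ v : Fin n → K, v ⬝ᵥ v = 1 → ProjGenLinGroup.mk g *
      ProjGenLinGroup.mk (rf fun i => τ (v i)) =
        ProjGenLinGroup.mk (rf v) * ProjGenLinGroup.mk g := fun v hv => by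
    have e := h _ (rf_sq h2 hn h3 (hv ▸ IsSquare.one))
    rwa [act_mk, alrf_TCent, mul_inv_eq_iff_eq_mul] at e
  have h0 : ∀ i j, i ≠ j → (g : Matrix (Fin n) (Fin n) K) i j = 0 := fun i j hij => by
    have e := key (Pi.single j 1) (by simp)
    have e' : (fun i => τ ((Pi.single j 1 : Fin n → K) i)) = Pi.single j 1 := funext fun k => by
      by_cases hk : k = j <;> simp [hk]
    rw [e'] at e
    obtain ⟨c, hc⟩ := eig_DCent h2 hn (by simp) e
    simpa [hij] using congrFun hc i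
  obtain ⟨d, hd⟩ : ∃ d : Fin n → K, (g : Matrix (Fin n) (Fin n) K) = diagonal d :=
    ⟨fun i => (g : Matrix (Fin n) (Fin n) K) i i, Matrix.ext fun i j => by
      by_cases hij : i = j
      · simp [hij]
      · simp [hij, h0 i j hij]⟩
  have hd0 : ∀ i, d i ≠ 0 := fun i => by
    have e := g.isUnit.map detMonoidHom
    rw [hd, coe_detMonoidHom, det_diagonal] at e
    exact Finset.prod_ne_zero_iff.1 e.ne_zero i (Finset.mem_univ i)
  have hsq : ∀ t : K, τ (t * t) = t * t := fun t => by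
    obtain ⟨a, b, hab⟩ := two_WSgn h2 (1 - t * t)
    obtain ⟨v, hv⟩ : ∃ v : Fin n → K, v = (Pi.single ⟨0, by omega⟩ t : Fin n → K) +
      (Pi.single ⟨1, by omega⟩ a : Fin n → K) + (Pi.single ⟨2, by omega⟩ b : Fin n → K) :=
      ⟨_, rfl⟩
    have v1 : v ⬝ᵥ v = 1 := by
      simp [hv, Fin.ext_iff]
      linear_combination hab
    have v1' : (fun i => τ (v i)) ⬝ᵥ (fun i => τ (v i)) = 1 := by
      have := congrArg τ v1
      simpa [dotProduct] using this
    have v3 : v ⟨3, by omega⟩ = 0 := by simp [hv, Fin.ext_iff]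
    have v0 : v ⟨0, by omega⟩ = t := by simp [hv, Fin.ext_iff]
    have e := key v v1
    rw [← map_mul, ← map_mul, ProjGenLinGroup.mk_eq_mk_iff] at e
    obtain ⟨u, hu⟩ := e
    have e1 : ∀ k, d k * (1 - 2 * (τ (v k) * τ (v k))) * u = (1 - 2 * (v k * v k)) * d k :=
      fun k => by
        have e2 := congrArg (fun x : GL (Fin n) K => (x : Matrix (Fin n) (Fin n) K) k k) hu
        change ((g : Matrix (Fin n) (Fin n) K) * rfm (fun i => τ (v i)) *
          diagonal (fun _ => (u : K)) : Matrix (Fin n) (Fin n) K) k k =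
          (rfm v * (g : Matrix (Fin n) (Fin n) K) : Matrix (Fin n) (Fin n) K) k k at e2
        rw [hd, mul_diagonal, diagonal_mul, mul_diagonal, rfm, rfm, v1, v1'] at e2
        simpa [vecMulVec_apply] using e2
    have e3 := e1 ⟨3, by omega⟩
    have e0 := e1 ⟨0, by omega⟩
    rw [v3, map_zero] at e3
    have u1 : (u : K) = 1 := mul_left_cancel₀ (hd0 ⟨3, by omega⟩) (by linear_combination e3)
    rw [v0, u1] at e0
    rw [map_mul]
    exact mul_left_cancel₀ (mul_ne_zero h2 (hd0 ⟨0, by omega⟩)) (by linear_combination -e0)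
  refine RingEquiv.ext fun s => ?_
  have e : s = (s + 1) / 2 * ((s + 1) / 2) - (s - 1) / 2 * ((s - 1) / 2) := by
    field_simp
    ring
  change τ s = s
  rw [e, map_sub, hsq, hsq]

end Vale.Agent.P240
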