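import Vale.Agent.P240.W.Theta
import Vale.Agent.P240.W.Fld
import Vale.Agent.P240.W.Sgn
import Vale.Agent.P240.V.Cnt
import Vale.Agent.P240.U.Psl

/-! P240 W/Main: every automorphism of the orthogonal group PH (n odd, at least 5) is standard. -/

namespace Vale.Agent.P240

open Matrix

variable {n : ℕ} {K : Type} [Field K] [Finite K]
  {φ : ProjGenLinGroup (Fin n) K → ProjGenLinGroup (Fin n) K}

/-- `φ` is a standard automorphism on PH. -/
def StdO (φ : ProjGenLinGroup (Fin n) K → ProjGenLinGroup (Fin n) K) : Prop :=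
  ∃ y ∈ PO n K, ∃ τ : RingAut K, ∀ a ∈ PH n K, φ a = y * act n K (τ, 1) a * y⁻¹

omit [Finite K] in
theorem stdO_conj {z : ProjGenLinGroup (Fin n) K} (hz : z ∈ PO n K)
    (h : StdO fun a => MulAut.conj z (φ a)) : StdO φ := by
  obtain ⟨y, hy, q, h⟩ := h
  refine ⟨z⁻¹ * y, mul_mem (inv_mem hz) hy, q, fun a ha => ?_⟩
  have h1 : z * φ a * z⁻¹ = _ := h a ha
  calc φ a = z⁻¹ * (z * φ a * z⁻¹) * z := by group
    _ = _ := by rw [h1]; group

omit [Finite K] in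
theorem conj_iff_WMain {z : ProjGenLinGroup (Fin n) K} (hz : z ∈ PO n K)
    (a : ProjGenLinGroup (Fin n) K) : a ∈ PH n K ↔ MulAut.conj z a ∈ PH n K :=
  Subgroup.mem_normalizer_iff.1 (PO_norm hz) a

theorem std_fixO (h2 : (2 : K) ≠ 0) (hq : 49 ≤ Nat.card K) (hn : Odd n) (h5 : 5 ≤ n)
    (hφ : Au (PH n K) φ) (hE : ∀ i, φ (es K {i}) = es K {i}) : StdO φ := by
  have h3 : 3 ≤ n := by omega
  obtain ⟨θ, t0, t1, t2, t3⟩ := theta_O h2 hn h5 hφ hE
  obtain ⟨τ, hτ⟩ := fld_O h2 h5 (fun v hv => (t0 v hv).1) t1 t2 t3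
  obtain ⟨d, hd, hθ⟩ := sgn_O h2 (by omega) h3 t2 hτ
  have hD : dg d ∈ OG n K := dg_mem_Mem hd
  let ψ : MulAut (ProjGenLinGroup (Fin n) K) :=
    MulAut.conj (ProjGenLinGroup.mk (dg d)) * act n K (τ, 1)
  have key : ∀ v : Fin n → K, v ⬝ᵥ v = 1 →
      φ (ProjGenLinGroup.mk (rf v)) = ψ (ProjGenLinGroup.mk (rf v)) := by
    intro v hv
    have e1 : ((dg d : GL (Fin n) K) : Matrix (Fin n) (Fin n) K) *ᵥ (fun i => τ (v i)) =
        fun i => d i * τ (v i) := by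
      funext i
      exact mulVec_diagonal _ _ i
    have e2 : ψ (ProjGenLinGroup.mk (rf v)) =
        ProjGenLinGroup.mk (rf fun i => d i * τ (v i)) := by
      rw [MulAut.mul_apply, act_mk, alrf_TCent, MulAut.conj_apply, ← map_inv, ← map_mul, ← map_mul,
        rf_conj hD, e1]
    rw [e2, (t0 v hv).2]
    rcases hθ v hv with h | h
    · rw [h]
    · rw [h, ← neg_one_smul K, rf_smul (neg_ne_zero.2 one_ne_zero)]
  refine ⟨_, Subgroup.mem_map_of_mem _ hD, τ, fun a ha => ?_⟩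
  show φ a = ψ a
  have h6 : a⁻¹ * ψ⁻¹ (φ a) = 1 := by
    refine cent_real h2 hq hn h3 (σ := 1) (mul_one _) fun v _ hv => ?_
    have m1 : ProjGenLinGroup.mk (rf v) ∈ PH n K := rf_sq h2 hn h3 (by rw [hv]; exact IsSquare.one)
    obtain ⟨g, hg, rfl⟩ := PH_le ha
    have e1 := key _ ((dot_DRefl hg v v).trans hv)
    rw [← rf_conj hg, map_mul, map_mul, map_inv, hφ.mul _ (mul_mem ha m1) _ (inv_mem ha),
      hφ.mul _ ha _ m1, hφ.inv ha, key _ hv] at e1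
    have e2 := congrArg (fun x => ψ⁻¹ x) e1
    simp only [map_mul, map_inv, MulAut.inv_apply, MulEquiv.symm_apply_apply] at e2
    simp only [MulAut.inv_apply]
    generalize ψ.symm (φ (ProjGenLinGroup.mk g)) = x at e2 ⊢
    calc (ProjGenLinGroup.mk g)⁻¹ * x * ProjGenLinGroup.mk (rf v)
        = (ProjGenLinGroup.mk g)⁻¹ * (x * ProjGenLinGroup.mk (rf v) * x⁻¹) * x := by group
      _ = _ := by rw [e2]; group
  have h7 : ψ⁻¹ (φ a) = a := (inv_mul_eq_one.1 h6).symm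
  conv_rhs => rw [← h7]
  rw [MulAut.apply_inv_self]

theorem aut_PH (h2 : (2 : K) ≠ 0) (hq : 49 ≤ Nat.card K) (hn : Odd n) (h5 : 5 ≤ n)
    (hφ : Au (PH n K) φ) : StdO φ := by
  have h3 : 3 ≤ n := by omega
  obtain ⟨y, hyU, hy⟩ := diag_O h2 hn h3 hφ
  have m1 : (ProjGenLinGroup.mk y)⁻¹ ∈ PO n K := inv_mem (Subgroup.mem_map_of_mem _ hyU)
  refine stdO_conj m1 ?_
  have hφ1 := hφ.comp _ (conj_iff_WMain m1)
  obtain ⟨π, hπ⟩ := ext_L h2 hn h3 (es_memO hn) (fun r s h => es_conjO h2 hn h3 h) hφ1 fun i => by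
    obtain ⟨s, hs⟩ := hy i
    refine ⟨s, ?_⟩
    rw [hs, MulAut.conj_apply]
    group
  obtain ⟨w, hwU, hw⟩ := perm_og (K := K) π⁻¹
  have m2 : ProjGenLinGroup.mk w ∈ PO n K := Subgroup.mem_map_of_mem _ hwU
  refine stdO_conj m2 (std_fixO h2 hq hn h5 (hφ1.comp _ (conj_iff_WMain m2)) fun i => ?_)
  rw [hπ i, MulAut.conj_apply, es, ← map_inv, ← map_mul, ← map_mul, hw, Finset.map_singleton]
  simp [es]

theorem cmp_PH (h2 : (2 : K) ≠ 0) (hq : 49 ≤ Nat.card K) (hn : Odd n) (h5 : 5 ≤ n)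
    {G : Type} [Group G] {L : Subgroup G} (e : L ≃* PH n K) :
    Cmp L (PH n K) (OG n K) ⊥ := by
  refine ⟨e, fun x hx hxx => ?_⟩
  let c : MulAut L := L.normalizerMonoidHom ⟨x, hx⟩
  have hc : ∀ l : L, (c l : G) = x * l * x⁻¹ := fun l => rfl
  obtain ⟨φ, hφ, hv⟩ := au_equiv (e.symm.trans (c.trans e))
  have hv' : ∀ l : L, φ (e l) = e (c l) := fun l => by
    rw [hv]
    simp
  obtain ⟨_, ⟨Y, hY, rfl⟩, τ, h⟩ := aut_PH h2 hq hn h5 hφ
  refine ⟨Y, hY, τ, ?_, 1, one_mem _, fun l l' hl g hg => ?_⟩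
  · refine fix_O h2 hn h5 (y := ProjGenLinGroup.mk Y * act n K (τ, 1) (ProjGenLinGroup.mk Y))
      fun a ha => ?_
    obtain ⟨l, hl⟩ := e.surjective ⟨a, ha⟩
    have e1 : c (c l) = l := Subtype.ext (by
      rw [hc, hc, ← mul_assoc, ← mul_assoc, hxx, one_mul, mul_assoc, ← _root_.mul_inv_rev, hxx,
        inv_one, mul_one])
    have e2 : φ (φ (e l)) = e l := by rw [hv', hv', e1]
    rw [hl] at e2
    have e3 : φ (φ a) = a := e2
    rw [h _ (hφ.mem _ ha), h _ ha] at e3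
    have e4 : ((τ * τ, 1) : RingAut K × ℤˣ) = (τ, 1) * (τ, 1) := Prod.ext rfl (mul_one _).symm
    rw [e4, map_mul, MulAut.mul_apply]
    conv_rhs => rw [← e3]
    simp only [map_mul, map_inv]
    group
  · have e1 : l' = c l := Subtype.ext (hl.trans (hc l).symm)
    rw [e1, ← hv', h _ (e l).2, hg, act_mk, map_mul, map_mul, map_inv]

theorem elim_O {G : Type} [Group G] [Finite G] (hG : MinHyp 2 G) (hn : Odd n) (h5 : 5 ≤ n)
    (h2 : (2 : K) ≠ 0) {L : Subgroup G} (hL : L.IsSubnormal) (hs : IsSimpleGroup L)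
    (hq : 49 ≤ Nat.card K) (hq' : IsSquare (Nat.card K) → 100 ^ 2 ≤ Nat.card K)
    (e : L ≃* PH n K) : HQ 2 (⊤ : Subgroup G) :=
  fin_core hG hL hs PH_le (fun p _ => act_PO p)
    (fun _ hx => cent_B h2 hq hn (by omega) hx.1 (Subgroup.mem_bot.1 hx.2))
    (fun A hA comm hsq => pc_B h2 hn (by omega) hq hq' A hA comm hsq) (cmp_PH h2 hq hn h5 e)

end Vale.Agent.P240
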