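import Vale.Agent.P240.D.PC
import Vale.Agent.P240.U.Conj

/-! P240 W/Cnt (automorphisms of the orthogonal group PH, n odd; auxiliary names end with `_WCnt`). perm_og: as perm_gu in V/Cnt. es_conjO: take the permutation matrix w carrying s to r; by lemma two either mk w is in PH or mk w * mk (rf x) is, where x = a e i + b e j has non-square norm (sum_DPC) and i ≠ j lie both in s or both outside s (n ≥ 3), so that rf x commutes with sg s. es_rf: entries. -/

namespace Vale.Agent.P240

open Matrix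

variable {n : ℕ} {K : Type} [Field K] {i j : Fin n} {r s : Finset (Fin n)}
  {φ : ProjGenLinGroup (Fin n) K → ProjGenLinGroup (Fin n) K} {u v w u' v' : Fin n → K}
  {θ : (Fin n → K) → Fin n → K}

theorem perm_og (π : Equiv.Perm (Fin n)) : ∃ w ∈ OG n K, ∀ s : Finset (Fin n),
    w * sg K s * w⁻¹ = sg K (s.map π.toEmbedding) := by
  have h0 : (Equiv.Perm.permMatrix K π.symm).det ≠ 0 := by
    rw [det_permutation]
    rcases Int.units_eq_one_or (Equiv.Perm.sign π.symm) with h | h <;> rw [h] <;> simp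
  refine ⟨GeneralLinearGroup.mkOfDetNeZero _ h0, ?_, fun s => ?_⟩
  · show (Equiv.Perm.permMatrix K π.symm)ᵀ * Equiv.Perm.permMatrix K π.symm = 1
    rw [transpose_permMatrix, ← permMatrix_mul, mul_inv_cancel, permMatrix_one]
  · rw [mul_inv_eq_iff_eq_mul]
    refine Units.ext ?_
    rw [Units.val_mul, Units.val_mul, sg_val, sg_val]
    ext a b
    rw [mul_diagonal, diagonal_mul]
    by_cases h : π.symm a = b
    · subst h
      rw [mul_comm]
      simp only [Finset.mem_map_equiv]
    · have h1 : (GeneralLinearGroup.mkOfDetNeZero _ h0 : GL (Fin n) K).val a b = 0 := by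
        show Equiv.Perm.permMatrix K π.symm a b = 0
        simp [Equiv.Perm.permMatrix, PEquiv.toMatrix_apply, h]
      rw [h1, zero_mul, mul_zero]

theorem comm_WCnt (h : i ∈ s ↔ j ∈ s) (a b : K) :
    rf (Pi.single i a + Pi.single j b) * sg K s = sg K s * rf (Pi.single i a + Pi.single j b) := by
  have h1 : sg K s ∈ OG n K := dg_mem_Mem fun k => by split_ifs <;> simp
  have h2 := rf_conj h1 (Pi.single i a + Pi.single j b)
  have h3 : (sg K s : Matrix (Fin n) (Fin n) K) *ᵥ (Pi.single i a + Pi.single j b) =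
      (((if j ∈ s then -1 else 1 : Kˣ)) : K) • (Pi.single i a + Pi.single j b : Fin n → K) := by
    rw [sg_val, mulVec_add, diagonal_mulVec_single, diagonal_mulVec_single, smul_add,
      ← Pi.single_smul', ← Pi.single_smul', if_congr h rfl rfl]
    rfl
  rw [h3, rf_smul (Units.ne_zero _), mul_inv_eq_iff_eq_mul] at h2
  exact h2.symm

theorem es_conjO [Finite K] (h2 : (2 : K) ≠ 0) (hn : Odd n) (h3 : 3 ≤ n) (h : r.card = s.card) :
    ∃ z ∈ PH n K, es K r = z * es K s * z⁻¹ := by
  obtain ⟨π, rfl⟩ := Equiv.Perm.exists_map_finset_eq s r h.symm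
  obtain ⟨w, hw, he⟩ := perm_og (K := K) π
  obtain ⟨a, b, hab⟩ := sum_DPC h2
  obtain ⟨i, j, hij, h4⟩ := Fintype.exists_ne_map_eq_of_card_lt (fun i : Fin n => decide (i ∈ s))
    (by rw [Fintype.card_bool, Fintype.card_fin]; exact h3)
  have hx : ¬IsSquare ((Pi.single i a + Pi.single j b : Fin n → K) ⬝ᵥ
      (Pi.single i a + Pi.single j b)) := by
    have e : (Pi.single i a + Pi.single j b : Fin n → K) ⬝ᵥ (Pi.single i a + Pi.single j b) =
        a ^ 2 + b ^ 2 := by
      simp [add_dotProduct, hij, hij.symm, sq]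
    rwa [e]
  have e : es K (s.map π.toEmbedding) =
      ProjGenLinGroup.mk w * es K s * (ProjGenLinGroup.mk w)⁻¹ := by
    rw [es, es, ← map_inv, ← map_mul, ← map_mul, he]
  rcases two h2 hn h3 hx (y := ProjGenLinGroup.mk w) ⟨w, hw, rfl⟩ with h5 | h5
  · exact ⟨_, h5, e⟩
  · refine ⟨_, h5, ?_⟩
    have hc := congrArg ProjGenLinGroup.mk (comm_WCnt (decide_eq_decide.1 h4) a b)
    rw [map_mul, map_mul] at hc
    rw [e, es, mul_assoc (ProjGenLinGroup.mk w) (ProjGenLinGroup.mk (rf _)), hc,
      _root_.mul_inv_rev, ← mul_assoc, ← mul_assoc, mul_inv_cancel_right]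

theorem es_rf (i : Fin n) : es K {i} = ProjGenLinGroup.mk (rf (Pi.single i 1 : Fin n → K)) := by
  refine congrArg ProjGenLinGroup.mk (Units.ext ?_)
  rw [sg_val]
  show _ = rfm _
  ext a b
  by_cases ha : a = i
  · subst ha
    by_cases hb : a = b
    · subst hb
      simp [rfm, vecMulVec_apply]
      norm_num
    · simp [rfm, vecMulVec_apply, hb, Ne.symm hb]
  · by_cases hb : a = b
    · subst hb
      simp [rfm, vecMulVec_apply, ha]
    · simp [rfm, vecMulVec_apply, ha, hb]

end Vale.Agent.P240
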