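import Vale.Agent.P240.D.PC
import Vale.Agent.P240.U.Defs

/-! P240 W/Pair (automorphisms of the orthogonal group PH, n odd; auxiliary names end with `_WPair`). Use the Witt lemma of D/Refl (wit_DRefl) and lemma two. nsq_perp: map u to e 0 and the component of v orthogonal to u, which has norm 1 - (u v)^2 ≠ 0, to a vector supported on the places 1, 2; a vector supported on the places 3, 4 has non-square norm (sum_DPC); pull back. pair_conj: replace v' by -v' so that the products agree (rf (-v) = rf v); Witt for u, u', then for the orthogonal components, fixing u'; correct by rf x with x from nsq_perp (it fixes u and v). unit_conj: pair_conj is not needed, Witt for e i and v, correct by rf x with x i = 0. -/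

namespace Vale.Agent.P240

open Matrix

variable {n : ℕ} {K : Type} [Field K] {i j : Fin n} {r s : Finset (Fin n)}
  {φ : ProjGenLinGroup (Fin n) K → ProjGenLinGroup (Fin n) K} {u v w u' v' : Fin n → K}
  {θ : (Fin n → K) → Fin n → K}

theorem rf_act {g : GL (Fin n) K} (hg : g ∈ OG n K) (v : Fin n → K) :
    g * rf v * g⁻¹ = rf ((g : Matrix (Fin n) (Fin n) K) *ᵥ v) := by
  exact rf_conj hg v

theorem rf_inj (h2 : (2 : K) ≠ 0) (h3 : 3 ≤ n) (hu : u ⬝ᵥ u = 1) (hv : v ⬝ᵥ v = 1)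
    (h : ProjGenLinGroup.mk (rf u) = ProjGenLinGroup.mk (rf v)) : v = u ∨ v = -u := by
  obtain ⟨c, hc⟩ := ProjGenLinGroup.mk_eq_mk_iff.1 h
  have key : ∀ x : Fin n → K, (c : K) • (x - (2 * (u ⬝ᵥ x)) • u) = x - (2 * (v ⬝ᵥ x)) • v := by
    intro x
    have h1 := mulVec_DRefl v x
    have h3 := mulVec_DRefl u x
    rw [hv, div_one] at h1
    rw [hu, div_one] at h3
    rw [← h1, ← h3, ← hc, Units.val_mul, ← mulVec_mulVec, ← mulVec_smul]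
    refine congrArg _ (funext fun i => ?_)
    show (c : K) * x i = (diagonal (fun _ => (c : K)) *ᵥ x) i
    rw [mulVec_diagonal]
  let f : (Fin n → K) →ₗ[K] K × K := (dotProductBilin K K u).prod (dotProductBilin K K v)
  obtain ⟨x, hx, hx0⟩ := Submodule.exists_mem_ne_zero_of_ne_bot
    (LinearMap.ker_ne_bot_of_finrank_lt (f := f) (by simp; omega))
  have a1 : u ⬝ᵥ x = 0 := congrArg Prod.fst hx
  have a2 : v ⬝ᵥ x = 0 := congrArg Prod.snd hx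
  have a3 := key x
  rw [a1, a2, mul_zero, zero_smul, zero_smul, sub_zero] at a3
  have a4 : (c : K) = 1 := by
    have a5 : ((c : K) - 1) • x = 0 := by rw [sub_smul, a3, one_smul, sub_self]
    exact sub_eq_zero.1 ((smul_eq_zero.1 a5).resolve_right hx0)
  have a6 := key v
  rw [a4, one_smul, hv, sub_right_inj, mul_smul, mul_smul, one_smul] at a6
  have a7 : (u ⬝ᵥ v) • u = v := smul_right_injective _ h2 a6
  have a8 : (u ⬝ᵥ v) * (u ⬝ᵥ v) = 1 := by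
    have a9 := congrArg (· ⬝ᵥ v) a7
    simp only [smul_dotProduct, smul_eq_mul] at a9
    rw [a9, hv]
  rcases mul_self_eq_one_iff.1 a8 with e | e
  · rw [e, one_smul] at a7
    exact Or.inl a7.symm
  · rw [e, neg_one_smul] at a7
    exact Or.inr a7.symm

theorem dot_WPair (j k : Fin n) (a b : K) (y : Fin n → K) :
    (Pi.single j a + Pi.single k b : Fin n → K) ⬝ᵥ y = a * y j + b * y k := by
  rw [add_dotProduct, single_dotProduct, single_dotProduct]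

theorem nrm_WPair {j k : Fin n} (h : j ≠ k) (a b : K) :
    (Pi.single j a + Pi.single k b : Fin n → K) ⬝ᵥ (Pi.single j a + Pi.single k b) =
      a ^ 2 + b ^ 2 := by
  rw [dot_WPair, Pi.add_apply, Pi.add_apply, Pi.single_eq_same, Pi.single_eq_same,
    Pi.single_eq_of_ne h, Pi.single_eq_of_ne h.symm]
  ring

theorem perp_WPair (hu : u ⬝ᵥ u = 1) (hv : v ⬝ᵥ v = 1) : (v - (u ⬝ᵥ v) • u) ⬝ᵥ u = 0 ∧
    (v - (u ⬝ᵥ v) • u) ⬝ᵥ (v - (u ⬝ᵥ v) • u) = 1 - (u ⬝ᵥ v) ^ 2 := by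
  simp only [sub_dotProduct, dotProduct_sub, smul_dotProduct, dotProduct_smul, smul_eq_mul, hu, hv,
    dotProduct_comm v u]
  constructor <;> ring

theorem frame_WPair (h2 : (2 : K) ≠ 0) (hu : u ⬝ᵥ u ≠ 0) (hu' : u' ⬝ᵥ u' = u ⬝ᵥ u)
    (hv : v ⬝ᵥ v ≠ 0) (hv' : v' ⬝ᵥ v' = v ⬝ᵥ v) (h : v ⬝ᵥ u = 0) (h' : v' ⬝ᵥ u' = 0) :
    ∃ g ∈ OG n K, (g : Matrix (Fin n) (Fin n) K) *ᵥ u = u' ∧
      (g : Matrix (Fin n) (Fin n) K) *ᵥ v = v' := by
  obtain ⟨g, hg, e⟩ := witt h2 hu hu'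
  obtain ⟨k, hk, e1, e2⟩ := wit_DRefl h2 (u := (g : Matrix (Fin n) (Fin n) K) *ᵥ v) (v := v')
    (by rwa [dot_DRefl hg]) (by rwa [dot_DRefl hg])
  refine ⟨k * g, Subgroup.mul_mem _
    ((Subgroup.closure_le _).2 (Set.range_subset_iff.2 rf_mem) hk) hg, ?_, ?_⟩
  · rw [Units.val_mul, ← mulVec_mulVec, e]
    exact e2 _ (by rwa [← e, dot_DRefl hg]) h'
  · rw [Units.val_mul, ← mulVec_mulVec, e1]

theorem cor_WPair [Finite K] (h2 : (2 : K) ≠ 0) (hn : Odd n) (h3 : 3 ≤ n) {g : GL (Fin n) K}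
    (hg : g ∈ OG n K) (hw : ¬IsSquare (w ⬝ᵥ w)) : ∃ k ∈ OG n K, ProjGenLinGroup.mk k ∈ PH n K ∧
      ∀ y, w ⬝ᵥ y = 0 →
        (k : Matrix (Fin n) (Fin n) K) *ᵥ y = (g : Matrix (Fin n) (Fin n) K) *ᵥ y := by
  rcases two h2 hn h3 hw (Subgroup.mem_map_of_mem _ hg) with h | h
  · exact ⟨g, hg, h, fun _ _ => rfl⟩
  · refine ⟨g * rf w, Subgroup.mul_mem _ hg (rf_mem w), by rwa [map_mul], fun y hy => ?_⟩
    rw [Units.val_mul, ← mulVec_mulVec, mulVec_DRefl, hy, mul_zero, zero_smul, sub_zero]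

theorem nsq_perp [Finite K] (h2 : (2 : K) ≠ 0) (h5 : 5 ≤ n) (hu : u ⬝ᵥ u = 1) (hv : v ⬝ᵥ v = 1)
    (h : (u ⬝ᵥ v) ^ 2 ≠ 1) : ∃ x : Fin n → K, ¬IsSquare (x ⬝ᵥ x) ∧ x ⬝ᵥ u = 0 ∧ x ⬝ᵥ v = 0 := by
  classical
  have : Fintype K := Fintype.ofFinite K
  have hc : ringChar K ≠ 2 := fun h => h2 (by
    have h1 := ringChar.Nat.cast_ringChar (R := K)
    rw [h] at h1
    exact_mod_cast h1)
  obtain ⟨a, b, hab⟩ := FiniteField.exists_root_sum_quadratic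
    (f := Polynomial.X ^ 2) (g := Polynomial.X ^ 2 - Polynomial.C (1 - (u ⬝ᵥ v) ^ 2))
    (Polynomial.degree_X_pow 2) (Polynomial.degree_X_pow_sub_C (by norm_num) _)
    (FiniteField.odd_card_of_char_ne_two hc)
  simp only [Polynomial.eval_pow, Polynomial.eval_X, Polynomial.eval_sub, Polynomial.eval_C] at hab
  obtain ⟨c, d, hcd⟩ := sum_DPC h2
  obtain ⟨m, rfl⟩ : ∃ m, n = m + 5 := ⟨n - 5, by omega⟩
  have n01 : (1 : Fin (m + 5)) ≠ 0 := Fin.ne_of_val_ne (by show 1 ≠ 0; omega)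
  have n02 : (2 : Fin (m + 5)) ≠ 0 := Fin.ne_of_val_ne (by show 2 ≠ 0; omega)
  have n03 : (3 : Fin (m + 5)) ≠ 0 := Fin.ne_of_val_ne (by show 3 ≠ 0; omega)
  have n04 : (4 : Fin (m + 5)) ≠ 0 := Fin.ne_of_val_ne (by show 4 ≠ 0; omega)
  have n12 : (1 : Fin (m + 5)) ≠ 2 := Fin.ne_of_val_ne (by show 1 ≠ 2; omega)
  have n31 : (3 : Fin (m + 5)) ≠ 1 := Fin.ne_of_val_ne (by show 3 ≠ 1; omega)
  have n32 : (3 : Fin (m + 5)) ≠ 2 := Fin.ne_of_val_ne (by show 3 ≠ 2; omega)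
  have n41 : (4 : Fin (m + 5)) ≠ 1 := Fin.ne_of_val_ne (by show 4 ≠ 1; omega)
  have n42 : (4 : Fin (m + 5)) ≠ 2 := Fin.ne_of_val_ne (by show 4 ≠ 2; omega)
  have n34 : (3 : Fin (m + 5)) ≠ 4 := Fin.ne_of_val_ne (by show 3 ≠ 4; omega)
  obtain ⟨p1, p2⟩ := perp_WPair hu hv
  obtain ⟨g, hg, g1, g2⟩ := frame_WPair h2 (u := u) (u' := Pi.single 0 1) (v := v - (u ⬝ᵥ v) • u)
    (v' := Pi.single 1 a + Pi.single 2 b) (by rw [hu]; exact one_ne_zero) (by rw [hu]; simp)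
    (by rw [p2]; exact sub_ne_zero.2 h.symm) (by
      rw [p2, nrm_WPair n12]
      linear_combination hab) p1 (by
      rw [dot_WPair, Pi.single_eq_of_ne n01, Pi.single_eq_of_ne n02]
      simp)
  let x := ((g⁻¹ : GL (Fin (m + 5)) K) : Matrix (Fin (m + 5)) (Fin (m + 5)) K) *ᵥ
    (Pi.single 3 c + Pi.single 4 d)
  have hx : (g : Matrix (Fin (m + 5)) (Fin (m + 5)) K) *ᵥ x = Pi.single 3 c + Pi.single 4 d := by
    rw [mulVec_mulVec, Units.mul_inv, one_mulVec]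
  have b1 : x ⬝ᵥ u = 0 := by
    rw [← dot_DRefl hg, hx, g1, dot_WPair, Pi.single_eq_of_ne n03, Pi.single_eq_of_ne n04]
    simp
  have b2 : x ⬝ᵥ (v - (u ⬝ᵥ v) • u) = 0 := by
    rw [← dot_DRefl hg, hx, g2, dot_WPair, Pi.add_apply, Pi.add_apply, Pi.single_eq_of_ne n31,
      Pi.single_eq_of_ne n32, Pi.single_eq_of_ne n41, Pi.single_eq_of_ne n42]
    simp
  refine ⟨x, by rwa [← dot_DRefl hg, hx, nrm_WPair n34], b1, ?_⟩
  rwa [dotProduct_sub, dotProduct_smul, b1, smul_zero, sub_zero] at b2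

theorem pair_conj [Finite K] (h2 : (2 : K) ≠ 0) (hn : Odd n) (h5 : 5 ≤ n) (hu : u ⬝ᵥ u = 1)
    (hv : v ⬝ᵥ v = 1) (hu' : u' ⬝ᵥ u' = 1) (hv' : v' ⬝ᵥ v' = 1) (h : (u ⬝ᵥ v) ^ 2 = (u' ⬝ᵥ v') ^ 2)
    (h1 : (u ⬝ᵥ v) ^ 2 ≠ 1) : ∃ g ∈ OG n K, ProjGenLinGroup.mk g ∈ PH n K ∧ g * rf u * g⁻¹ = rf u' ∧
      g * rf v * g⁻¹ = rf v' := by
  have key : ∀ v' : Fin n → K, v' ⬝ᵥ v' = 1 → u' ⬝ᵥ v' = u ⬝ᵥ v →
      ∃ g ∈ OG n K, ProjGenLinGroup.mk g ∈ PH n K ∧ g * rf u * g⁻¹ = rf u' ∧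
        g * rf v * g⁻¹ = rf v' := by
    intro v' hv' e
    obtain ⟨p1, p2⟩ := perp_WPair hu hv
    obtain ⟨q1, q2⟩ := perp_WPair hu' hv'
    obtain ⟨g, hg, g1, g2⟩ := frame_WPair h2 (u := u) (u' := u') (by rw [hu]; exact one_ne_zero)
      (by rw [hu, hu']) (by rw [p2]; exact sub_ne_zero.2 h1.symm) (by rw [p2, q2, e]) p1 q1
    rw [mulVec_sub, mulVec_smul, g1, e, sub_left_inj] at g2
    obtain ⟨x, x1, x2, x3⟩ := nsq_perp h2 h5 hu hv h1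
    obtain ⟨k, hk, k1, k2⟩ := cor_WPair h2 hn (by omega) hg x1
    exact ⟨k, hk, k1, by rw [rf_conj hk, k2 u x2, g1], by rw [rf_conj hk, k2 v x3, g2]⟩
  rcases sq_eq_sq_iff_eq_or_eq_neg.1 h with e | e
  · exact key v' hv' e.symm
  · have h4 := key (-v') (by rwa [neg_dotProduct_neg]) (by rw [dotProduct_neg, e])
    rwa [← neg_one_smul K v', rf_smul (neg_ne_zero.2 one_ne_zero)] at h4

theorem unit_conj [Finite K] (h2 : (2 : K) ≠ 0) (hn : Odd n) (h3 : 3 ≤ n) (hv : v ⬝ᵥ v = 1)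
    (i : Fin n) : ∃ g ∈ OG n K, ProjGenLinGroup.mk g ∈ PH n K ∧
      g * rf (Pi.single i 1 : Fin n → K) * g⁻¹ = rf v := by
  obtain ⟨j, k, a1, a2, a3⟩ : ∃ j k : Fin n, j ≠ i ∧ k ≠ i ∧ j ≠ k := by
    by_cases h0 : i.val = 0
    · exact ⟨⟨1, by omega⟩, ⟨2, by omega⟩, Fin.ne_of_val_ne (by show 1 ≠ i.val; omega),
        Fin.ne_of_val_ne (by show 2 ≠ i.val; omega), Fin.ne_of_val_ne (by show 1 ≠ 2; omega)⟩
    by_cases h1 : i.val = 1
    · exact ⟨⟨0, by omega⟩, ⟨2, by omega⟩, Fin.ne_of_val_ne (by show 0 ≠ i.val; omega),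
        Fin.ne_of_val_ne (by show 2 ≠ i.val; omega), Fin.ne_of_val_ne (by show 0 ≠ 2; omega)⟩
    · exact ⟨⟨0, by omega⟩, ⟨1, by omega⟩, Fin.ne_of_val_ne (by show 0 ≠ i.val; omega),
        Fin.ne_of_val_ne (by show 1 ≠ i.val; omega), Fin.ne_of_val_ne (by show 0 ≠ 1; omega)⟩
  obtain ⟨c, d, hcd⟩ := sum_DPC h2
  obtain ⟨g, hg, e⟩ := witt h2 (u := (Pi.single i 1 : Fin n → K)) (v := v) (by simp)
    (by rw [hv]; simp)
  obtain ⟨l, hl, k1, k2⟩ := cor_WPair h2 hn h3 hg (w := Pi.single j c + Pi.single k d)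
    (by rwa [nrm_WPair a3])
  refine ⟨l, hl, k1, ?_⟩
  rw [rf_conj hl, k2 _ (by
    rw [dot_WPair, Pi.single_eq_of_ne a1, Pi.single_eq_of_ne a2]
    simp), e]

end Vale.Agent.P240
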