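import Vale.Agent.P240.D.PC
import Vale.Agent.P240.U.Defs

/-! P240 W/Spin (automorphisms of the orthogonal group PH, n odd; auxiliary names end with `_WSpin`). Plan: X = {x // x ⬝ᵥ x = 1}, χ : OG n K →* ℤˣ the sign of the permutation of X (MulAction.toPermHom or a direct MonoidHom); it kills the commutator subgroup. spin_sign: Equiv.Perm.sign_of_pow_two_eq_one; the fixed points of rf v on X are the x with v ⬝ᵥ x = 0. Take n = m + 2, v = e 0 and w = (a, b, 0, ..) with c = a a + b b a non-square (sum_DPC). The fixed sets are in bijection with the pairs (t, y), y : Fin m → K, with t t + y y = 1, resp. c t t + y y = 1; for each y the two numbers of t add up to 2, so N1 + N2 = 2 q ^ m = 2 mod 4; N1, N2 and card X are even (x to -x is a fixed point free involution), so the signs differ. If mk (rf w) is in PH then so is mk (rf w * rf v) (rf_sq), so rf w * rf v = scalar u * g with g in the commutator subgroup; u u = 1 (both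 orthogonal), u ^ n = 1 (determinants), so u = 1 and χ (rf w) = χ (rf v). nsq_not_mem: lemma two gives PO ≤ PH otherwise. -/

namespace Vale.Agent.P240

open Matrix

variable {n : ℕ} {K : Type} [Field K] {i j : Fin n} {r s : Finset (Fin n)}
  {φ : ProjGenLinGroup (Fin n) K → ProjGenLinGroup (Fin n) K} {u v w u' v' : Fin n → K}
  {θ : (Fin n → K) → Fin n → K}

theorem det_WSpin (hv : v ⬝ᵥ v ≠ 0) : (rf v : Matrix (Fin n) (Fin n) K).det = -1 := by
  have e : (rf v : Matrix (Fin n) (Fin n) K) =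
      1 + replicateCol Unit (-(2 / (v ⬝ᵥ v)) • v) * replicateRow Unit v := by
    rw [← vecMulVec_eq, smul_vecMulVec, neg_smul, ← sub_eq_add_neg]
    rfl
  rw [e, det_one_add_replicateCol_mul_replicateRow, dotProduct_smul, smul_eq_mul, neg_mul,
    div_mul_cancel₀ _ hv]
  ring

theorem ker_WSpin {A : Type} [CommGroup A] (χ : OG n K →* A) {g : GL (Fin n) K}
    (hg : g ∈ ⁅OG n K, OG n K⁆) : ∃ h : g ∈ OG n K, χ ⟨g, h⟩ = 1 := by
  have h1 : ⁅OG n K, OG n K⁆ ≤ χ.ker.map (OG n K).subtype :=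
    Subgroup.commutator_le.2 fun a ha b hb => by
      obtain ⟨x, hx⟩ : ∃ x : OG n K, (OG n K).subtype x = a := ⟨⟨a, ha⟩, rfl⟩
      obtain ⟨y, hy⟩ : ∃ y : OG n K, (OG n K).subtype y = b := ⟨⟨b, hb⟩, rfl⟩
      refine Subgroup.mem_map.2 ⟨x * y * x⁻¹ * y⁻¹, MonoidHom.mem_ker.2 ?_, ?_⟩
      · rw [map_mul, map_mul, map_mul, map_inv, map_inv, mul_right_comm (χ x) (χ y),
          mul_inv_cancel, one_mul, mul_inv_cancel]
      · rw [commutatorElement_def, map_mul, map_mul, map_mul, map_inv, map_inv, hx, hy]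
  obtain ⟨x, hx, rfl⟩ := h1 hg
  exact ⟨x.2, hx⟩

theorem eq_WSpin (h2 : (2 : K) ≠ 0) (hn : Odd n) (h3 : 3 ≤ n) {A : Type} [CommGroup A]
    (χ : OG n K →* A) (hv : v ⬝ᵥ v = 1) (hw : w ⬝ᵥ w ≠ 0)
    (h : ProjGenLinGroup.mk (rf w) ∈ PH n K) :
    χ ⟨rf w, rf_mem w⟩ * χ ⟨rf v, rf_mem v⟩ = 1 := by
  have h1 := (PH n K).mul_mem h (rf_sq h2 hn h3 (v := v) (hv ▸ IsSquare.one))
  rw [← map_mul, PH, if_pos hn] at h1
  obtain ⟨g, hg, e⟩ := h1
  obtain ⟨c, hc⟩ := ProjGenLinGroup.mk_eq_mk_iff.1 e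
  obtain ⟨hg', e1⟩ := ker_WSpin χ hg
  obtain ⟨hg2, e2⟩ := ker_WSpin (GeneralLinearGroup.det.comp (OG n K).subtype) hg
  have c1 : c ^ n = 1 := by
    have h4 := congrArg GeneralLinearGroup.det hc
    rw [map_mul, map_mul, show GeneralLinearGroup.det g = 1 from e2, one_mul,
      GeneralLinearGroup.det_scalar, Fintype.card_fin] at h4
    rw [h4]
    refine Units.ext ?_
    rw [Units.val_mul, GeneralLinearGroup.val_det_apply, GeneralLinearGroup.val_det_apply,
      det_WSpin hw, det_WSpin (hv ▸ one_ne_zero), Units.val_one]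
    ring
  have c2 : c ^ 2 = 1 := by
    have hm : GeneralLinearGroup.scalar (Fin n) c ∈ OG n K := by
      rw [← inv_mul_cancel_left g (GeneralLinearGroup.scalar (Fin n) c), hc]
      exact mul_mem (inv_mem hg') (mul_mem (rf_mem w) (rf_mem v))
    have h4 := dot_DRefl hm v v
    have h5 : (GeneralLinearGroup.scalar (Fin n) c : Matrix (Fin n) (Fin n) K) *ᵥ v =
        (c : K) • v := funext fun i => mulVec_diagonal (fun _ => (c : K)) v i
    rw [h5, smul_dotProduct, dotProduct_smul, hv, smul_eq_mul, smul_eq_mul, mul_one] at h4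
    exact Units.ext (by rw [sq]; exact h4)
  obtain ⟨k, hk⟩ := hn
  rw [hk, pow_succ, pow_mul, c2, one_pow, one_mul] at c1
  rw [c1, map_one, mul_one] at hc
  rw [← map_mul, ← e1]
  exact congrArg χ (Subtype.ext hc.symm)

theorem act_WSpin : ∃ π : OG n K →* Equiv.Perm {x : Fin n → K // x ⬝ᵥ x = 1},
    ∀ g x, (π g x).1 = ((g : GL (Fin n) K) : Matrix (Fin n) (Fin n) K) *ᵥ x.1 := by
  let f : OG n K →* Function.End {x : Fin n → K // x ⬝ᵥ x = 1} :=
    { toFun := fun g x => ⟨((g : GL (Fin n) K) : Matrix (Fin n) (Fin n) K) *ᵥ x.1,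
        (dot_DRefl g.2 x.1 x.1).trans x.2⟩
      map_one' := funext fun x => Subtype.ext (one_mulVec x.1)
      map_mul' := fun a b => funext fun x => Subtype.ext (mulVec_mulVec x.1
        ((a : GL (Fin n) K) : Matrix (Fin n) (Fin n) K)
        ((b : GL (Fin n) K) : Matrix (Fin n) (Fin n) K)).symm }
  exact ⟨f.toHomPerm, fun g x => rfl⟩

theorem par_WSpin {α : Type} [Fintype α] [DecidableEq α] (σ : Equiv.Perm α) (h : σ ^ 2 = 1) :
    Fintype.card α % 2 = Fintype.card (Function.fixedPoints σ) % 2 ∧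
      Fintype.card (Function.fixedPoints σ) ≤ Fintype.card α := by
  have key : ∀ f : Function.End α, (∀ x, f (f x) = x) → f ^ 2 ^ 1 = 1 := fun f hf => by
    rw [pow_one, sq]
    exact funext hf
  rw [sq] at h
  exact ⟨Equiv.Perm.card_fixedPoints_modEq (f := (σ : α → α)) (p := 2) (n := 1)
    (key _ fun x => congrArg (fun τ : Equiv.Perm α => τ x) h),
    Fintype.card_le_of_injective _ Subtype.val_injective⟩

theorem even_WSpin [Fintype K] [DecidableEq K] (h2 : (2 : K) ≠ 0) :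
    Fintype.card {x : Fin n → K // x ⬝ᵥ x = 1} % 2 = 0 := by
  have hi : Function.Involutive fun x : {x : Fin n → K // x ⬝ᵥ x = 1} =>
      (⟨-x.1, (neg_dotProduct_neg _ _).trans x.2⟩ : {x : Fin n → K // x ⬝ᵥ x = 1}) :=
    fun x => Subtype.ext (neg_neg _)
  rw [(par_WSpin hi.toPerm (Equiv.ext fun x => hi x)).1, Fintype.card_eq_zero_iff.2 ⟨fun x => ?_⟩]
  have h1 : -x.1.1 = x.1.1 := congrArg Subtype.val x.2
  have h3 := x.1.2
  nth_rewrite 1 [← h1] at h3
  rw [neg_dotProduct, x.1.2] at h3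
  exact h2 (by linear_combination -h3)

/-- A vector in the first two coordinates. -/
def cv_WSpin (m : ℕ) (a b : K) : Fin (m + 2) → K := Fin.cons a (Fin.cons b 0)

theorem dot_WSpin {m : ℕ} (x y : Fin (m + 2) → K) : x ⬝ᵥ y = x 0 * y 0 + (x 1 * y 1 +
    (fun i : Fin m => x i.succ.succ) ⬝ᵥ fun i : Fin m => y i.succ.succ) := by
  rw [dotProduct, Fin.sum_univ_succ, Fin.sum_univ_succ]
  rfl

theorem cd_WSpin {m : ℕ} (a b : K) (x : Fin (m + 2) → K) :
    cv_WSpin m a b ⬝ᵥ x = a * x 0 + b * x 1 := by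
  rw [dot_WSpin]
  show a * x 0 + (b * x 1 + (0 : Fin m → K) ⬝ᵥ _) = _
  rw [zero_dotProduct, add_zero]

theorem sq_WSpin {m : ℕ} (a b : K) : cv_WSpin m a b ⬝ᵥ cv_WSpin m a b = a ^ 2 + b ^ 2 := by
  rw [cd_WSpin, sq, sq]
  rfl

theorem fix_WSpin [Fintype K] [DecidableEq K] (h2 : (2 : K) ≠ 0) (hF : ringChar K ≠ 2) {m : ℕ}
    {a b : K} (hc : a ^ 2 + b ^ 2 ≠ 0) (σ : Equiv.Perm {x : Fin (m + 2) → K // x ⬝ᵥ x = 1})
    (hσ : ∀ x, (σ x).1 = (rf (cv_WSpin m a b) : Matrix (Fin (m + 2)) (Fin (m + 2)) K) *ᵥ x.1) :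
    (Fintype.card (Function.fixedPoints σ) : ℤ) =
      ∑ y : Fin m → K, (quadraticChar K ((1 - y ⬝ᵥ y) / (a ^ 2 + b ^ 2)) + 1) := by
  have e1 : Fintype.card (Function.fixedPoints σ) = (Finset.univ.filter
      fun x : {x : Fin (m + 2) → K // x ⬝ᵥ x = 1} => a * x.1 0 + b * x.1 1 = 0).card := by
    refine Fintype.card_of_subtype _ fun x => ?_
    have h0 : cv_WSpin m a b ≠ 0 := fun e => hc (by rw [← sq_WSpin (m := m), e, zero_dotProduct])
    rw [Finset.mem_filter, Function.mem_fixedPoints_iff, Subtype.ext_iff, hσ, mulVec_DRefl,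
      sub_eq_self, smul_eq_zero, sq_WSpin, cd_WSpin, mul_eq_zero]
    simp only [Finset.mem_univ, true_and, h0, or_false, div_ne_zero h2 hc, false_or]
  have e2 : (Finset.univ.filter
      fun x : {x : Fin (m + 2) → K // x ⬝ᵥ x = 1} => a * x.1 0 + b * x.1 1 = 0).card =
      (Finset.univ.filter fun p : (Fin m → K) × K =>
        p.2 ^ 2 = (1 - p.1 ⬝ᵥ p.1) / (a ^ 2 + b ^ 2)).card := by
    refine Finset.card_bij'
      (fun x _ => (fun i => x.1 i.succ.succ, (a * x.1 1 - b * x.1 0) / (a ^ 2 + b ^ 2)))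
      (fun p hp => ⟨Fin.cons (-(p.2 * b)) (Fin.cons (p.2 * a) p.1), ?_⟩) (fun x hx => ?_)
      (fun p hp => ?_) (fun x hx => ?_) fun p hp => ?_
    · have h1 := (eq_div_iff hc).1 (Finset.mem_filter.1 hp).2
      rw [dot_WSpin]
      show -(p.2 * b) * -(p.2 * b) + (p.2 * a * (p.2 * a) + p.1 ⬝ᵥ p.1) = 1
      linear_combination h1
    · have h1 := (Finset.mem_filter.1 hx).2
      have h3 := x.2
      rw [dot_WSpin] at h3
      refine Finset.mem_filter.2 ⟨Finset.mem_univ _, ?_⟩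
      rw [div_pow, div_eq_div_iff (pow_ne_zero 2 hc) hc]
      linear_combination (a ^ 2 + b ^ 2) ^ 2 * h3 - (a ^ 2 + b ^ 2) * (a * x.1 0 + b * x.1 1) * h1
    · refine Finset.mem_filter.2 ⟨Finset.mem_univ _, ?_⟩
      show a * -(p.2 * b) + b * (p.2 * a) = 0
      ring
    · have h1 := (Finset.mem_filter.1 hx).2
      refine Subtype.ext (funext fun i => Fin.cases ?_ (fun i => Fin.cases ?_ (fun i => rfl) i) i)
      · show -((a * x.1 1 - b * x.1 0) / (a ^ 2 + b ^ 2) * b) = x.1 0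
        rw [div_mul_eq_mul_div, ← neg_div, div_eq_iff hc]
        linear_combination -a * h1
      · show (a * x.1 1 - b * x.1 0) / (a ^ 2 + b ^ 2) * a = x.1 1
        rw [div_mul_eq_mul_div, div_eq_iff hc]
        linear_combination -b * h1
    · refine Prod.ext rfl ?_
      show (a * (p.2 * a) - b * -(p.2 * b)) / (a ^ 2 + b ^ 2) = p.2
      rw [div_eq_iff hc]
      ring
  rw [e1, e2, Finset.card_filter, Fintype.sum_prod_type, Nat.cast_sum]
  refine Finset.sum_congr rfl fun y _ => ?_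
  rw [← quadraticChar_card_sqrts hF, Set.toFinset_ofPred, Finset.card_filter]

theorem spin_ex [Finite K] (h2 : (2 : K) ≠ 0) (hn : Odd n) (h3 : 3 ≤ n) :
    ∃ w : Fin n → K, ProjGenLinGroup.mk (rf w) ∉ PH n K := by
  classical
  have i0 := Fintype.ofFinite K
  obtain ⟨m, rfl⟩ : ∃ m, n = m + 2 := ⟨n - 2, by omega⟩
  obtain ⟨a, b, hab⟩ := sum_DPC h2
  have hc : a ^ 2 + b ^ 2 ≠ 0 := fun e => hab (e ▸ IsSquare.zero)
  have h1 : (1 : K) ^ 2 + 0 ^ 2 ≠ 0 := by simp
  have hF : ringChar K ≠ 2 := fun e => h2 (by simpa [e] using ringChar.Nat.cast_ringChar (R := K))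
  refine ⟨cv_WSpin m a b, fun h => ?_⟩
  obtain ⟨π, hπ⟩ := act_WSpin (n := m + 2) (K := K)
  have e := eq_WSpin h2 hn h3 (Equiv.Perm.sign.comp π) (v := cv_WSpin m 1 0)
    (by rw [sq_WSpin]; simp) (by rw [sq_WSpin]; exact hc) h
  have hs : ∀ x : Fin (m + 2) → K, π ⟨rf x, rf_mem x⟩ ^ 2 = 1 := fun x => by
    rw [← map_pow, ← map_one π]
    exact congrArg π (Subtype.ext (Units.ext (by rw [sq]; exact rfm_sq x)))
  have n1 := fix_WSpin h2 hF hc (π ⟨rf _, rf_mem (cv_WSpin m a b)⟩) (hπ _)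
  have n2 := fix_WSpin h2 hF h1 (π ⟨rf _, rf_mem (cv_WSpin m 1 0)⟩) (hπ _)
  have p1 := par_WSpin _ (hs (cv_WSpin m a b))
  have p2 := par_WSpin _ (hs (cv_WSpin m 1 0))
  have p3 := even_WSpin (n := m + 2) h2
  rw [MonoidHom.comp_apply, MonoidHom.comp_apply, Equiv.Perm.sign_of_pow_two_eq_one (hs _),
    Equiv.Perm.sign_of_pow_two_eq_one (hs _), ← pow_add] at e
  have hq : (Fintype.card K ^ m) % 2 = 1 :=
    Nat.odd_iff.1 (Nat.odd_iff.2 (FiniteField.odd_card_of_char_ne_two hF)).pow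
  have n3 : ∑ y : Fin m → K, (quadraticChar K ((1 - y ⬝ᵥ y) / (a ^ 2 + b ^ 2)) + 1) +
      ∑ y : Fin m → K, (quadraticChar K ((1 - y ⬝ᵥ y) / (1 ^ 2 + 0 ^ 2)) + 1) =
      ((2 * Fintype.card K ^ m : ℕ) : ℤ) := by
    have e1 : quadraticChar K (a ^ 2 + b ^ 2)⁻¹ = -1 :=
      quadraticChar_neg_one_iff_not_isSquare.2 fun h4 => hab (isSquare_inv.1 h4)
    rw [← Finset.sum_add_distrib, Finset.sum_congr rfl (g := fun _ => 2) fun y _ => by
      rw [div_eq_mul_inv, map_mul, e1, show (1 : K) ^ 2 + 0 ^ 2 = 1 by simp, div_one]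
      ring]
    simp [mul_comm]
  rw [← n1, ← n2, ← Nat.cast_add, Nat.cast_inj] at n3
  rw [Odd.neg_one_pow (Nat.odd_iff.2 (by omega))] at e
  exact absurd e (by decide)

theorem nsq_not_mem [Finite K] (h2 : (2 : K) ≠ 0) (hn : Odd n) (h3 : 3 ≤ n)
    (hw : ¬IsSquare (w ⬝ᵥ w)) : ProjGenLinGroup.mk (rf w) ∉ PH n K := by
  intro h
  obtain ⟨x, hx⟩ := spin_ex h2 hn h3
  rcases two h2 hn h3 hw (y := ProjGenLinGroup.mk (rf x)) ⟨rf x, rf_mem x, rfl⟩ with h1 | h1
  · exact hx h1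
  · exact hx (((PH n K).mul_mem_cancel_right h).1 h1)

end Vale.Agent.P240
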