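import Vale.Agent.P240.D.PC
import Vale.Agent.P240.U.Defs

/-! P240 W/Unip (automorphisms of the orthogonal group PH, n odd; auxiliary names end with `_WUnip`). With t = u v, A = vecMulVec u u, B = vecMulVec v v: M = rf u * rf v - 1 = -2 A - 2 B + 4 A B has trace 4 t t - 4. If t t = 1 then M ^ 3 = 0 (replace v by -v so that t = 1; vecMulVec_mul_vecMulVec), p ≥ 3 is prime, (1 + M) ^ p = 1 + M ^ p (add_pow_char_of_commute). Conversely (rf u * rf v) ^ p = scalar c; a nonzero vector orthogonal to u and v (n ≥ 3) is fixed, so c = 1; M is nilpotent (sub_pow_char_of_commute), its trace vanishes (Matrix.isNilpotent_trace_of_isNilpotent). -/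

namespace Vale.Agent.P240

open Matrix

variable {n : ℕ} {K : Type} [Field K] {i j : Fin n} {r s : Finset (Fin n)}
  {φ : ProjGenLinGroup (Fin n) K → ProjGenLinGroup (Fin n) K} {u v w u' v' : Fin n → K}
  {θ : (Fin n → K) → Fin n → K}

theorem cube_WUnip {R : Type} [Ring R] {A B : R} (hA : A * A = A) (hB : B * B = B)
    (h1 : A * (B * A) = A) (h2 : B * (A * B) = B) :
    ((1 - (A + A)) * (1 - (B + B)) - 1) ^ 3 = 0 := by
  have e1 : (1 - (A + A)) * (1 - (B + B)) - 1 = 2 • (A * B + A * B - A - B) := by noncomm_ring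
  have a1 : ∀ X, A * (A * X) = A * X := fun X => by rw [← mul_assoc, hA]
  have e2 : (A * B + A * B - A - B) ^ 2 = A * B + B * A - A - B := by
    simp only [pow_two, mul_sub, sub_mul, mul_add, add_mul, mul_assoc, a1, hA, hB, h1, h2]
    abel
  have e3 : (A * B + A * B - A - B) ^ 3 = 0 := by
    rw [pow_succ, e2]
    simp only [mul_sub, sub_mul, mul_add, add_mul, mul_assoc, a1, hA, hB, h1, h2]
    abel
  rw [e1, smul_pow, e3, smul_zero]

theorem perp_WUnip (h3 : 3 ≤ n) (u v : Fin n → K) :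
    ∃ w : Fin n → K, w ≠ 0 ∧ u ⬝ᵥ w = 0 ∧ v ⬝ᵥ w = 0 := by
  obtain ⟨w, h1, h2⟩ := Submodule.exists_mem_ne_zero_of_ne_bot
    (LinearMap.ker_ne_bot_of_finrank_lt (f := (Matrix.of ![u, v]).mulVecLin) (by
      rw [Module.finrank_fin_fun, Module.finrank_fin_fun]
      omega))
  exact ⟨w, h2, congrFun h1 0, congrFun h1 1⟩

theorem unip_iff [Finite K] (h2 : (2 : K) ≠ 0) (h3 : 3 ≤ n) {p : ℕ} [CharP K p] (hu : u ⬝ᵥ u = 1)
    (hv : v ⬝ᵥ v = 1) :
    (u ⬝ᵥ v) ^ 2 = 1 ↔ (ProjGenLinGroup.mk (rf u) * ProjGenLinGroup.mk (rf v)) ^ p = 1 := by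
  have hp : p.Prime := CharP.char_is_prime K p
  have : Fact p.Prime := ⟨hp⟩
  have : Nonempty (Fin n) := ⟨⟨0, by omega⟩⟩
  have hp3 : 3 ≤ p := by
    refine Nat.succ_le_of_lt (hp.two_le.lt_of_ne fun e => h2 ?_)
    subst e
    exact_mod_cast CharP.cast_eq_zero K 2
  have hr : ∀ x : Fin n → K, x ⬝ᵥ x = 1 → rfm x = 1 - (vecMulVec x x + vecMulVec x x) :=
    fun x hx => by rw [rfm, hx, div_one, two_smul]
  have hs := sub_pow_char_of_commute p (Commute.one_right (rfm u * rfm v))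
  have hval : (((rf u * rf v) ^ p : GL (Fin n) K) : Matrix (Fin n) (Fin n) K) =
      (rfm u * rfm v) ^ p := by
    rw [Units.val_pow_eq_pow_val, Units.val_mul]
    rfl
  rw [one_pow] at hs
  rw [← map_mul, ← map_pow]
  constructor
  · intro h
    have key : ∀ x y : Fin n → K, (x ⬝ᵥ y) ^ 2 = 1 →
        vecMulVec x x * (vecMulVec y y * vecMulVec x x) = vecMulVec x x := fun x y e => by
      rw [← mul_assoc, vecMulVec_mul_vecMulVec, vecMulVec_mul_vecMulVec, smul_dotProduct,
        smul_eq_mul, dotProduct_comm y x, ← pow_two, e, one_smul]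
    have idm : ∀ x : Fin n → K, x ⬝ᵥ x = 1 → vecMulVec x x * vecMulVec x x = vecMulVec x x :=
      fun x e => by rw [vecMulVec_mul_vecMulVec, e, one_smul]
    have h1 := cube_WUnip (idm u hu) (idm v hv) (key u v h) (key v u (dotProduct_comm u v ▸ h))
    rw [← hr u hu, ← hr v hv] at h1
    rw [pow_eq_zero_of_le hp3 h1] at hs
    rw [show (rf u * rf v) ^ p = 1 from Units.ext (hval.trans (sub_eq_zero.1 hs.symm)), map_one]
  · intro h
    rw [ProjGenLinGroup.mk_eq_one, GeneralLinearGroup.mem_center_iff_val_mem_range_scalar,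
      hval] at h
    obtain ⟨c, hc⟩ := h
    obtain ⟨w, w0, w1, w2⟩ := perp_WUnip h3 u v
    have h1 : ∀ x : Fin n → K, x ⬝ᵥ w = 0 → rfm x *ᵥ w = w := fun x hx => by
      rw [rfm, sub_mulVec, one_mulVec, smul_mulVec, vecMulVec_mulVec, hx]
      simp
    have h4 : ∀ k : ℕ, (rfm u * rfm v) ^ k *ᵥ w = w := fun k => by
      induction k with
      | zero => rw [pow_zero, one_mulVec]
      | succ k ih => rw [pow_succ, ← mulVec_mulVec, ← mulVec_mulVec, h1 v w2, h1 u w1, ih]
    have h5 := h4 p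
    obtain ⟨i, hi⟩ := Function.ne_iff.1 w0
    rw [← hc, scalar_apply] at h5
    have h6 := congrFun h5 i
    rw [mulVec_diagonal] at h6
    rw [(mul_eq_right₀ hi).1 h6, map_one] at hc
    rw [← hc, sub_self] at hs
    have h7 := (Matrix.isNilpotent_trace_of_isNilpotent ⟨p, hs⟩).eq_zero
    rw [hr u hu, hr v hv] at h7
    simp only [mul_sub, sub_mul, mul_add, add_mul, one_mul, mul_one, trace_sub, trace_add,
      vecMulVec_mul_vecMulVec, trace_vecMulVec, dotProduct_smul, smul_eq_mul, hu, hv] at h7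
    refine mul_left_cancel₀ (mul_ne_zero h2 h2) ?_
    linear_combination h7

end Vale.Agent.P240
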