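import Vale.Agent.P240.W.Pair
import Vale.Agent.P240.W.Unip
import Vale.Agent.P240.W.Cnt
import Vale.Agent.P240.U.Bas

/-! P240 W/Theta (automorphisms of the orthogonal group PH, n odd; auxiliary names end with `_WTheta`). Plan: for a unit vector v, unit_conj gives mk (rf v) = z (es {i}) z⁻¹ with z in PH, so φ (mk (rf v)) = φ z (es {i}) (φ z)⁻¹ = mk (rf (g e i)) where φ z = mk g, g orthogonal (PH_le, rf_act, es_rf); choose θ v. mk (rf v) is in PH by rf_sq. Second property: if (u v)^2 = 1 use unip_iff twice with p = ringChar K (Au.mul, Au.pow, Au.one); otherwise pair_conj, apply φ, rf_act, rf_inj, and orthogonal matrices preserve products. The last property: rf u * rf v * (rf u)⁻¹ = rf (rfm u v) by rf_act, apply φ and rf_inj. -/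

namespace Vale.Agent.P240

open Matrix

variable {n : ℕ} {K : Type} [Field K] {i j : Fin n} {r s : Finset (Fin n)}
  {φ : ProjGenLinGroup (Fin n) K → ProjGenLinGroup (Fin n) K} {u v w u' v' : Fin n → K}
  {θ : (Fin n → K) → Fin n → K}

theorem conj_WTheta (hφ : Au (PH n K) φ) {z x : ProjGenLinGroup (Fin n) K} (hz : z ∈ PH n K)
    (hx : x ∈ PH n K) : φ (z * x * z⁻¹) = φ z * φ x * (φ z)⁻¹ := by
  rw [hφ.mul _ (mul_mem hz hx) _ (inv_mem hz), hφ.mul _ hz _ hx, hφ.inv hz]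

theorem act_WTheta (hφ : Au (PH n K) φ) {g : GL (Fin n) K} (hg : ProjGenLinGroup.mk g ∈ PH n K) :
    ∃ g' ∈ OG n K, ∀ a b : Fin n → K, ProjGenLinGroup.mk (rf a) ∈ PH n K →
      φ (ProjGenLinGroup.mk (rf a)) = ProjGenLinGroup.mk (rf b) →
      φ (ProjGenLinGroup.mk (g * rf a * g⁻¹)) =
        ProjGenLinGroup.mk (rf ((g' : Matrix (Fin n) (Fin n) K) *ᵥ b)) := by
  obtain ⟨g', h1, h2⟩ := PH_le (hφ.mem _ hg)
  refine ⟨g', h1, fun a b ha e => ?_⟩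
  rw [map_mul, map_mul, map_inv, conj_WTheta hφ hg ha, e, ← h2, ← rf_conj h1, map_mul, map_mul,
    map_inv]

theorem theta_O [Finite K] (h2 : (2 : K) ≠ 0) (hn : Odd n) (h5 : 5 ≤ n) (hφ : Au (PH n K) φ)
    (hE : ∀ i, φ (es K {i}) = es K {i}) : ∃ θ : (Fin n → K) → Fin n → K,
    (∀ v, v ⬝ᵥ v = 1 → θ v ⬝ᵥ θ v = 1 ∧ φ (ProjGenLinGroup.mk (rf v)) = ProjGenLinGroup.mk (rf (θ v))) ∧
    (∀ u v u' v', u ⬝ᵥ u = 1 → v ⬝ᵥ v = 1 → u' ⬝ᵥ u' = 1 → v' ⬝ᵥ v' = 1 →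
      (u ⬝ᵥ v) ^ 2 = (u' ⬝ᵥ v') ^ 2 → (θ u ⬝ᵥ θ v) ^ 2 = (θ u' ⬝ᵥ θ v') ^ 2) ∧
    (∀ i, θ (Pi.single i 1) = Pi.single i 1 ∨ θ (Pi.single i 1) = -Pi.single i 1) ∧
    ∀ u v, u ⬝ᵥ u = 1 → v ⬝ᵥ v = 1 →
      θ (rfm u *ᵥ v) = rfm (θ u) *ᵥ θ v ∨ θ (rfm u *ᵥ v) = -(rfm (θ u) *ᵥ θ v) := by
  have h3 : 3 ≤ n := by omega
  have mem : ∀ v : Fin n → K, v ⬝ᵥ v = 1 → ProjGenLinGroup.mk (rf v) ∈ PH n K := fun v hv =>
    rf_sq h2 hn h3 (by rw [hv]; exact IsSquare.one)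
  have e1 : ∀ i : Fin n, (Pi.single i 1 : Fin n → K) ⬝ᵥ Pi.single i 1 = 1 := fun i => by simp
  have ex : ∀ v : Fin n → K, ∃ w : Fin n → K, v ⬝ᵥ v = 1 → w ⬝ᵥ w = 1 ∧
      φ (ProjGenLinGroup.mk (rf v)) = ProjGenLinGroup.mk (rf w) := fun v => by
    by_cases hv : v ⬝ᵥ v = 1
    · obtain ⟨g, -, hg, e⟩ := unit_conj h2 hn h3 hv ⟨0, by omega⟩
      obtain ⟨g', h1, ha⟩ := act_WTheta hφ hg
      refine ⟨(g' : Matrix (Fin n) (Fin n) K) *ᵥ Pi.single ⟨0, by omega⟩ 1, fun _ =>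
        ⟨by rw [dot_DRefl h1, e1], ?_⟩⟩
      rw [← e]
      exact ha _ _ (mem _ (e1 _)) (by rw [← es_rf, hE])
    · exact ⟨v, fun h => absurd h hv⟩
  choose θ hθ using ex
  haveI := ringChar.charP K
  have key : ∀ u v : Fin n → K, u ⬝ᵥ u = 1 → v ⬝ᵥ v = 1 → (u ⬝ᵥ v) ^ 2 = 1 →
      (θ u ⬝ᵥ θ v) ^ 2 = 1 := fun u v hu hv h => by
    refine (unip_iff h2 h3 (p := ringChar K) (hθ u hu).1 (hθ v hv).1).2 ?_
    rw [← (hθ u hu).2, ← (hθ v hv).2, ← hφ.mul _ (mem u hu) _ (mem v hv),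
      ← hφ.pow (mul_mem (mem u hu) (mem v hv)), (unip_iff h2 h3 hu hv).1 h, hφ.one]
  refine ⟨θ, hθ, fun u v u' v' hu hv hu' hv' h => ?_, fun i => ?_, fun u v hu hv => ?_⟩
  · by_cases h1 : (u ⬝ᵥ v) ^ 2 = 1
    · rw [key u v hu hv h1, key u' v' hu' hv' (h ▸ h1)]
    obtain ⟨g, -, hg, a1, a2⟩ := pair_conj h2 hn h5 hu hv hu' hv' h h1
    obtain ⟨g', ho, ha⟩ := act_WTheta hφ hg
    have b1 := ha u _ (mem u hu) (hθ u hu).2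
    have b2 := ha v _ (mem v hv) (hθ v hv).2
    rw [a1, (hθ u' hu').2] at b1
    rw [a2, (hθ v' hv').2] at b2
    have c1 := rf_inj h2 h3 (hθ u' hu').1 (by rw [dot_DRefl ho, (hθ u hu).1]) b1
    have c2 := rf_inj h2 h3 (hθ v' hv').1 (by rw [dot_DRefl ho, (hθ v hv).1]) b2
    rw [← dot_DRefl ho (θ u) (θ v)]
    rcases c1 with c1 | c1 <;> rcases c2 with c2 | c2 <;> rw [c1, c2] <;> simp
  · exact rf_inj h2 h3 (e1 i) (hθ _ (e1 i)).1 (by rw [← (hθ _ (e1 i)).2, ← es_rf, hE])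
  · have hw : (rfm u *ᵥ v) ⬝ᵥ (rfm u *ᵥ v) = 1 := (dot_DRefl (rf_mem u) v v).trans hv
    refine rf_inj h2 h3 ((dot_DRefl (rf_mem (θ u)) (θ v) (θ v)).trans (hθ v hv).1) (hθ _ hw).1 ?_
    have d1 : rf u * rf v * (rf u)⁻¹ = rf (rfm u *ᵥ v) := rf_conj (rf_mem u) v
    have d2 : rf (θ u) * rf (θ v) * (rf (θ u))⁻¹ = rf (rfm (θ u) *ᵥ θ v) :=
      rf_conj (rf_mem (θ u)) (θ v)
    rw [← (hθ _ hw).2, ← d1, ← d2, map_mul, map_mul, map_inv, map_mul, map_mul, map_inv,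
      conj_WTheta hφ (mem u hu) (mem v hv), (hθ u hu).2, (hθ v hv).2]

end Vale.Agent.P240
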